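/-
P235-M, helper549.  The Bruhat part of uniform bridging (helper882 row 2008, helper18 row 2216,
helper66 row 2228, helper114 row 2275).

`G = Equiv.Perm α` for a linear order `α`; products are compositions: `(y * x) i = y (x i)`.
`Up x x'`: `x'` is obtained from `x` by exchanging two values which are in increasing order.
The Bruhat order is the reflexive transitive closure of `Up`; increasing / decreasing functions and
down-sets are defined by `Up` directly.
-/
import Mathlib

namespace VPBruhat

open Equiv Finset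

variable {α : Type*} [LinearOrder α]

/-- One step up in the (strong) Bruhat order: exchange two values which stand in increasing
order. -/
def Up (x x' : Perm α) : Prop := ∃ i j : α, i < j ∧ x i < x j ∧ x' = x * swap i j

/-- The (strong) Bruhat order. -/
def BLe (x x' : Perm α) : Prop := Relation.ReflTransGen Up x x'

/-- a function which increases along the Bruhat order -/
def Inc (f : Perm α → ℝ) : Prop := ∀ x x', Up x x' → f x ≤ f x'

/-- a function which decreases along the Bruhat order -/
def Dec (f : Perm α → ℝ) : Prop := ∀ x x', Up x x' → f x' ≤ f x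

/-- increasing on a set -/
def IncOn (B : Finset (Perm α)) (f : Perm α → ℝ) : Prop :=
  ∀ x x', x ∈ B → x' ∈ B → Up x x' → f x ≤ f x'

/-- down-sets of the Bruhat order -/
def IsDown (B : Finset (Perm α)) : Prop := ∀ x x', Up x x' → x' ∈ B → x ∈ B

theorem mul_swap_eq (x : Perm α) (i j : α) : x * swap i j = swap (x i) (x j) * x := by
  ext t
  simp only [Perm.mul_apply]
  by_cases h1 : t = i
  · subst h1; simp
  by_cases h2 : t = j
  · subst h2; simp
  rw [swap_apply_of_ne_of_ne h1 h2, swap_apply_of_ne_of_ne (fun h => h1 (x.injective h))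
    (fun h => h2 (x.injective h))]

/-- the left-handed description of `Up`: exchange the positions of two values `p < q`. -/
theorem up_iff_left {x x' : Perm α} :
    Up x x' ↔ ∃ p q : α, p < q ∧ x⁻¹ p < x⁻¹ q ∧ x' = swap p q * x := by
  constructor
  · rintro ⟨i, j, hij, hx, rfl⟩
    exact ⟨x i, x j, hx, by simpa using hij, mul_swap_eq x i j⟩
  · rintro ⟨p, q, hpq, hx, rfl⟩
    refine ⟨x⁻¹ p, x⁻¹ q, hx, by simpa using hpq, ?_⟩
    rw [mul_swap_eq]; simp

theorem up_inv {x x' : Perm α} (h : Up x x') : Up x⁻¹ x'⁻¹ := by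
  obtain ⟨p, q, hpq, hx, rfl⟩ := up_iff_left.1 h
  exact ⟨p, q, hpq, hx, by simp [mul_inv_rev, swap_inv]⟩

theorem up_inv_iff {x x' : Perm α} : Up x⁻¹ x'⁻¹ ↔ Up x x' :=
  ⟨fun h => by simpa using up_inv h, up_inv⟩

theorem Inc.inv {f : Perm α → ℝ} (hf : Inc f) : Inc (fun x => f x⁻¹) :=
  fun _ _ h => hf _ _ (up_inv h)

theorem Dec.inv {f : Perm α → ℝ} (hf : Dec f) : Dec (fun x => f x⁻¹) :=
  fun _ _ h => hf _ _ (up_inv h)

theorem Inc.ble {f : Perm α → ℝ} (hf : Inc f) {x x' : Perm α} (h : BLe x x') : f x ≤ f x' := by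
  induction h with
  | refl => exact le_rfl
  | tail _ h ih => exact ih.trans (hf _ _ h)

theorem Dec.ble {f : Perm α → ℝ} (hf : Dec f) {x x' : Perm α} (h : BLe x x') : f x' ≤ f x := by
  induction h with
  | refl => exact le_rfl
  | tail _ h ih => exact (hf _ _ h).trans ih

theorem IsDown.ble {B : Finset (Perm α)} (hB : IsDown B) {x x' : Perm α} (h : BLe x x')
    (hx' : x' ∈ B) : x ∈ B := by
  induction h with
  | refl => exact hx'
  | tail _ h ih => exact ih (hB _ _ h hx')

theorem ble_inv {x x' : Perm α} (h : BLe x x') : BLe x⁻¹ x'⁻¹ := by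
  induction h with
  | refl => exact Relation.ReflTransGen.refl
  | tail _ h ih => exact ih.tail (up_inv h)

/-- for two different positions exactly one of `Up y (y * swap p q)`, `Up (y * swap p q) y`. -/
theorem up_swap_or (y : Perm α) {p q : α} (hpq : p < q) :
    Up y (y * swap p q) ∨ Up (y * swap p q) y := by
  rcases lt_trichotomy (y p) (y q) with h | h | h
  · exact Or.inl ⟨p, q, hpq, h, rfl⟩
  · exact absurd (y.injective h) hpq.ne
  · refine Or.inr ⟨p, q, hpq, by simpa using h, ?_⟩
    rw [mul_assoc, swap_mul_self, mul_one]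

theorem up_iff_of_swap (y : Perm α) {p q : α} (hpq : p < q) :
    Up y (y * swap p q) ↔ y p < y q := by
  constructor
  · rintro ⟨i, j, hij, h, he⟩
    have hs : swap p q = swap i j := mul_left_cancel he
    have h1 : swap p q p = swap i j p := by rw [hs]
    rw [swap_apply_left] at h1
    have hp : p = i ∨ p = j := by
      by_contra hc
      push Not at hc
      rw [swap_apply_of_ne_of_ne hc.1 hc.2] at h1
      exact hpq.ne h1.symm
    rcases hp with rfl | rfl
    · rw [swap_apply_left] at h1; rw [h1]; exact h
    · rw [swap_apply_right] at h1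
      rw [h1] at hpq
      exact absurd hij (not_lt.2 hpq.le)
  · intro h; exact ⟨p, q, hpq, h, rfl⟩

/-- **Lemma PHI** (helper18), bijective form: `B` a down-set, `Up x x'`.  There is an involution
`φ` of the group which maps `B` to `B` such that for `y ∈ B` either `y * x = φ y * x'` or
`Up (y * x) (φ y * x')`. -/
theorem phi_lemma {B : Finset (Perm α)} (hB : IsDown B) {x x' : Perm α} (hx : Up x x') :
    ∃ φ : Perm α → Perm α, (∀ y, φ (φ y) = y) ∧ (∀ y, y ∈ B ↔ φ y ∈ B) ∧
      ∀ y ∈ B, (y * x = φ y * x' ∨ Up (y * x) (φ y * x')) := by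
  classical
  obtain ⟨i, j, hij, hxij, rfl⟩ := hx
  set p := x i with hp
  set q := x j with hq
  have hsx : x * swap i j = swap p q * x := mul_swap_eq x i j
  have hss : ∀ y : Perm α, y * swap p q * swap p q = y := fun y => by
    rw [mul_assoc, swap_mul_self, mul_one]
  refine ⟨fun y => if (y ∈ B ↔ y * swap p q ∈ B) then y * swap p q else y, ?_, ?_, ?_⟩
  · intro y
    by_cases h : (y ∈ B ↔ y * swap p q ∈ B)
    · simp only [h, if_true, hss]
    · simp only [h, if_false]
  · intro y
    by_cases h : (y ∈ B ↔ y * swap p q ∈ B)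
    · simp only [h, if_true]
    · simp only [h, if_false]
  · intro y hy
    by_cases h : y * swap p q ∈ B
    · left
      have : (y ∈ B ↔ y * swap p q ∈ B) := ⟨fun _ => h, fun _ => hy⟩
      simp only [this, if_true]
      rw [hsx, ← mul_assoc, hss]
    · right
      have : ¬ (y ∈ B ↔ y * swap p q ∈ B) := fun hc => h (hc.1 hy)
      simp only [this, if_false]
      have hlt : y p < y q := by
        rcases up_swap_or y hxij with h1 | h1
        · exact (up_iff_of_swap y hxij).1 h1
        · exact absurd (hB _ _ h1 hy) h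
      exact ⟨i, j, hij, hlt, by rw [mul_assoc]⟩

section conv

variable [Fintype α]

/-- The pairing identity behind all convolution statements. -/
theorem conv_diff (f h : Perm α → ℝ) (x : Perm α) (p q : α) :
    2 * (∑ y, f y * h (y * (swap p q * x)) - ∑ y, f y * h (y * x)) =
      ∑ y, (f y - f (y * swap p q)) * (h (y * swap p q * x) - h (y * x)) := by
  classical
  have e1 : ∑ y, f (y * swap p q) * h (y * swap p q * x) = ∑ y, f y * h (y * x) :=
    Fintype.sum_equiv (Equiv.mulRight (swap p q)) _ _ (fun y => by simp)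
  have e2 : ∑ y, f (y * swap p q) * h (y * x) = ∑ y, f y * h (y * (swap p q * x)) := by
    refine Fintype.sum_equiv (Equiv.mulRight (swap p q)) _ _ (fun y => ?_)
    simp only [Equiv.coe_mulRight]
    rw [mul_assoc y (swap p q) (swap p q * x), ← mul_assoc (swap p q) (swap p q) x,
      swap_mul_self, one_mul]
  have e3 : ∑ y, (f y - f (y * swap p q)) * (h (y * swap p q * x) - h (y * x)) =
      ∑ y, f y * h (y * (swap p q * x)) - ∑ y, f y * h (y * x)
        - ∑ y, f (y * swap p q) * h (y * swap p q * x) + ∑ y, f (y * swap p q) * h (y * x) := by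
    rw [← Finset.sum_sub_distrib, ← Finset.sum_sub_distrib, ← Finset.sum_add_distrib]
    refine Finset.sum_congr rfl (fun y _ => ?_)
    rw [mul_assoc y (swap p q) x]; ring
  rw [e3, e1, e2]; ring

/-- decreasing weights, increasing function: the convolution `x ↦ Σ_y f y * h (y * x)` is
increasing.  (`h` only needs to be increasing on a set `B` containing all `y * x`, `y * x'` with
`f y ≠ 0`.) -/
theorem conv_inc_of {f h : Perm α → ℝ} {B : Finset (Perm α)} (hf : Dec f)
    (hh : IncOn B h) {x x' : Perm α} (hx : Up x x')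
    (hB : ∀ y, f y ≠ 0 → y * x ∈ B ∧ y * x' ∈ B) :
    ∑ y, f y * h (y * x) ≤ ∑ y, f y * h (y * x') := by
  obtain ⟨i, j, hij, hxij, rfl⟩ := hx
  set p := x i with hp
  set q := x j with hq
  have hsx : x * swap i j = swap p q * x := mul_swap_eq x i j
  rw [hsx] at hB ⊢
  have key : 0 ≤ ∑ y, (f y - f (y * swap p q)) * (h (y * swap p q * x) - h (y * x)) := by
    refine Finset.sum_nonneg (fun y _ => ?_)
    have hss : y * swap p q * swap p q = y := by rw [mul_assoc, swap_mul_self, mul_one]
    by_cases h0 : f y = 0 ∧ f (y * swap p q) = 0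
    · rw [h0.1, h0.2]; simp
    · have hmem : y * x ∈ B ∧ y * swap p q * x ∈ B := by
        by_cases h1 : f y = 0
        · have h2 : f (y * swap p q) ≠ 0 := fun hc => h0 ⟨h1, hc⟩
          have := hB _ h2
          rw [← mul_assoc, hss] at this
          exact ⟨this.2, this.1⟩
        · have := hB _ h1
          rw [← mul_assoc] at this
          exact this
      rcases lt_or_gt_of_ne (fun h => hxij.ne (y.injective h) : y p ≠ y q) with hlt | hgt
      · have u1 : Up y (y * swap p q) := ⟨p, q, hxij, hlt, rfl⟩
        have u2 : Up (y * x) (y * swap p q * x) := ⟨i, j, hij, hlt, by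
          rw [mul_assoc, ← hsx, mul_assoc]⟩
        exact mul_nonneg (sub_nonneg.2 (hf _ _ u1)) (sub_nonneg.2 (hh _ _ hmem.1 hmem.2 u2))
      · have u1 : Up (y * swap p q) y := ⟨p, q, hxij, by simpa using hgt, hss.symm⟩
        have u2 : Up (y * swap p q * x) (y * x) := by
          refine ⟨i, j, hij, ?_, ?_⟩
          · simp only [Perm.mul_apply, ← hp, ← hq, swap_apply_left, swap_apply_right]
            exact hgt
          · rw [mul_assoc (y * swap p q), hsx, ← mul_assoc, hss]
        exact mul_nonneg_of_nonpos_of_nonpos (sub_nonpos.2 (hf _ _ u1))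
          (sub_nonpos.2 (hh _ _ hmem.2 hmem.1 u2))
  have := conv_diff f h x p q
  linarith

/-- dec * inc = inc, global form. -/
theorem conv_inc {f h : Perm α → ℝ} (hf : Dec f) (hh : Inc h) :
    Inc (fun x => ∑ y, f y * h (y * x)) := fun _ _ hx =>
  conv_inc_of (B := Finset.univ) hf (fun _ _ _ _ hu => hh _ _ hu) hx (fun _ _ => by simp)

/-- dec * dec = dec, global form. -/
theorem conv_dec {f h : Perm α → ℝ} (hf : Dec f) (hh : Dec h) :
    Dec (fun x => ∑ y, f y * h (y * x)) := by
  intro x x' hx
  have := conv_inc_of (B := Finset.univ) (h := fun z => - h z) hf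
    (fun _ _ _ _ hu => neg_le_neg (hh _ _ hu)) hx (fun _ _ => by simp)
  simp only [mul_neg, Finset.sum_neg_distrib, neg_le_neg_iff] at this
  exact this

end conv

end VPBruhat
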