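/-
P235-M, helper549.  The static statement (S) as a Prop (GammaConst), in two equivalent forms:
for up-sets of the band and for increasing functions on the band.

band k = { v in S_2k : |v(x) - x| <= k } (= the Bruhat ideal of the k x k block swap),
flux a v = #{ x < a : v x >= a }.
-/
import Vale.Agent.P235.R2.H549.Bruhat

namespace VPBruhat

open Equiv Finset

/-- the number of strands which cross level `a` upwards -/
def flux {n : ℕ} (a : ℕ) (v : Perm (Fin n)) : ℕ :=
  (Finset.univ.filter (fun x : Fin n => (x : ℕ) < a ∧ a ≤ (v x : ℕ))).card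

/-- the band `|v x - x| ≤ k` in `S_{2k}` -/
def band (k : ℕ) : Finset (Perm (Fin (2 * k))) :=
  Finset.univ.filter (fun v => ∀ x : Fin (2 * k), (v x : ℕ) ≤ x + k ∧ (x : ℕ) ≤ v x + k)

/-- `U` is an up-set of `B` -/
def UpIn {α : Type*} [LinearOrder α] (B U : Finset (Perm α)) : Prop :=
  U ⊆ B ∧ ∀ v v', v ∈ U → v' ∈ B → Up v v' → v' ∈ U

/-- **Statement (S)** with constant `c`. -/
def GammaConst (c : ℝ) : Prop :=
  0 < c ∧ ∀ (k : ℕ) (U : Finset (Perm (Fin (2 * k)))), UpIn (band k) U →
    c * k * U.card ≤ ∑ v ∈ U, (flux k v : ℝ)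

/-- From up-sets to increasing nonnegative functions (any finite set `B`, any test function
`g`). -/
theorem sum_inc_of_upIn {α : Type*} [LinearOrder α] {B : Finset (Perm α)} (g : Perm α → ℝ)
    (hU : ∀ U, UpIn B U → 0 ≤ ∑ v ∈ U, g v) {P : Perm α → ℝ} :
    ∀ (m : ℕ) (U : Finset (Perm α)), U.card ≤ m → UpIn B U → (∀ v ∈ U, 0 ≤ P v) → IncOn U P →
      0 ≤ ∑ v ∈ U, P v * g v := by
  classical
  intro m
  induction m generalizing P with
  | zero =>
    intro U hm _ _ _
    rw [Finset.card_eq_zero.1 (Nat.le_zero.1 hm)]; simp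
  | succ m ih =>
    intro U hm hUB h0 hP
    rcases U.eq_empty_or_nonempty with rfl | hne
    · simp
    obtain ⟨v0, hv0, hmin⟩ := Finset.exists_min_image U P hne
    set c := P v0 with hc
    have hc0 : 0 ≤ c := h0 _ hv0
    set U' := U.filter (fun v => c < P v) with hU'
    have hlt : U'.card < U.card := by
      refine Finset.card_lt_card ((Finset.ssubset_iff_of_subset (Finset.filter_subset _ _)).2
        ⟨v0, hv0, ?_⟩)
      simp [hc]
    have hUB' : UpIn B U' := by
      refine ⟨(Finset.filter_subset _ _).trans hUB.1, ?_⟩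
      intro v v' hv hv' h
      rw [hU', Finset.mem_filter] at hv ⊢
      have hvU := hUB.2 v v' hv.1 hv' h
      exact ⟨hvU, lt_of_lt_of_le hv.2 (hP _ _ hv.1 hvU h)⟩
    have h2 := ih (P := fun v => P v - c) U' (by omega) hUB'
      (fun v hv => by
        rw [hU', Finset.mem_filter] at hv; linarith [hv.2])
      (fun v v' hv hv' h => by
        rw [hU', Finset.mem_filter] at hv hv'
        linarith [hP v v' hv.1 hv'.1 h])
    have h1 := hU U hUB
    have e : ∑ v ∈ U, P v * g v = c * ∑ v ∈ U, g v + ∑ v ∈ U', (P v - c) * g v := by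
      rw [hU', Finset.sum_filter, Finset.mul_sum, ← Finset.sum_add_distrib]
      refine Finset.sum_congr rfl (fun v hv => ?_)
      by_cases h : c < P v
      · rw [if_pos h]; ring
      · rw [if_neg h]
        have : P v = c := le_antisymm (not_lt.1 h) (hmin v hv)
        rw [this]; ring
    rw [e]
    exact add_nonneg (mul_nonneg hc0 h1) h2

/-- (S) for increasing functions on the band. -/
theorem GammaConst.inc {c : ℝ} (h : GammaConst c) (k : ℕ) {P : Perm (Fin (2 * k)) → ℝ}
    (h0 : ∀ v ∈ band k, 0 ≤ P v) (hP : IncOn (band k) P) :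
    c * k * ∑ v ∈ band k, P v ≤ ∑ v ∈ band k, P v * (flux k v : ℝ) := by
  have := sum_inc_of_upIn (B := band k) (g := fun v => (flux k v : ℝ) - c * k)
    (fun U hU => by
      rw [Finset.sum_sub_distrib, Finset.sum_const, nsmul_eq_mul]
      linarith [h.2 k U hU]) (band k).card (band k) le_rfl
    ⟨subset_rfl, fun _ _ _ h _ => h⟩ h0 hP
  have e : ∑ v ∈ band k, P v * ((flux k v : ℝ) - c * k) =
      ∑ v ∈ band k, P v * (flux k v : ℝ) - c * k * ∑ v ∈ band k, P v := by
    rw [Finset.mul_sum, ← Finset.sum_sub_distrib]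
    exact Finset.sum_congr rfl (fun v _ => by ring)
  rw [e] at this
  linarith

end VPBruhat
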