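/-
P235-M, helper549.  Theorem A (helper18 row 2216 = helper882 Lemma 2, row 2008): uniform bridging of
a Bruhat-increasing law gives Bruhat-increasing laws on both factors; hence (Tree.lean) every node
of every binary tree has a Bruhat-increasing law.
-/
import Vale.Agent.P235.R2.H549.Bruhat

namespace VPBruhat

open Equiv Finset
open scoped Pointwise

variable {α : Type*} [LinearOrder α] [Fintype α]

/-- indicator -/
noncomputable def ind (B : Finset (Perm α)) (x : Perm α) : ℝ := if x ∈ B then 1 else 0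

theorem ind_nonneg (B : Finset (Perm α)) (x : Perm α) : 0 ≤ ind B x := by
  unfold ind; split_ifs <;> norm_num

theorem ind_dec {B : Finset (Perm α)} (hB : IsDown B) : Dec (ind B) := by
  intro x x' h
  unfold ind
  by_cases h' : x' ∈ B
  · rw [if_pos h', if_pos (hB _ _ h h')]
  · rw [if_neg h']; split_ifs <;> norm_num

theorem ind_ne_zero {B : Finset (Perm α)} {x : Perm α} : ind B x ≠ 0 ↔ x ∈ B := by
  unfold ind; split_ifs with h <;> simp [h]

/-- `fac B₂ B₁ z` is the number of factorisations `z = y * x` with `y ∈ B₂`, `x ∈ B₁`. -/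
noncomputable def fac (B₂ B₁ : Finset (Perm α)) (z : Perm α) : ℝ :=
  ∑ y, ind B₂ y * ind B₁ (y⁻¹ * z)

theorem fac_eq_card (B₂ B₁ : Finset (Perm α)) (z : Perm α) :
    fac B₂ B₁ z = (((B₂ ×ˢ B₁).filter (fun w => w.1 * w.2 = z)).card : ℝ) := by
  classical
  unfold fac ind
  rw [Finset.card_eq_sum_ones, Nat.cast_sum]
  rw [Finset.sum_filter, Finset.sum_product]
  simp only [Nat.cast_one]
  rw [← Finset.sum_subset (Finset.subset_univ B₂)]
  · refine Finset.sum_congr rfl (fun y hy => ?_)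
    rw [if_pos hy, one_mul]
    by_cases h : y⁻¹ * z ∈ B₁
    · rw [if_pos h, Finset.sum_eq_single_of_mem _ h]
      · simp
      · intro b _ hb
        rw [if_neg]
        intro hc
        exact hb (by rw [← hc]; simp)
    · rw [if_neg h]
      symm
      refine Finset.sum_eq_zero (fun b hb => ?_)
      rw [if_neg]
      intro hc
      exact h (by rw [← hc]; simpa using hb)
  · intro y _ hy
    simp [hy]

theorem fac_nonneg (B₂ B₁ : Finset (Perm α)) (z : Perm α) : 0 ≤ fac B₂ B₁ z :=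
  Finset.sum_nonneg (fun _ _ => mul_nonneg (ind_nonneg _ _) (ind_nonneg _ _))

theorem fac_pos_iff {B₂ B₁ : Finset (Perm α)} {z : Perm α} : 0 < fac B₂ B₁ z ↔ z ∈ B₂ * B₁ := by
  rw [fac_eq_card, Nat.cast_pos, Finset.card_pos, Finset.mem_mul]
  constructor
  · rintro ⟨⟨y, x⟩, h⟩
    simp only [Finset.mem_filter, Finset.mem_product] at h
    exact ⟨y, h.1.1, x, h.1.2, h.2⟩
  · rintro ⟨y, hy, x, hx, h⟩
    exact ⟨(y, x), by simp [hy, hx, h]⟩

theorem isDown_inv {B : Finset (Perm α)} (hB : IsDown B) : IsDown (B⁻¹) := by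
  intro x x' h hx'
  rw [Finset.mem_inv'] at hx' ⊢
  exact hB _ _ (up_inv h) hx'

theorem ind_inv (B : Finset (Perm α)) (x : Perm α) : ind B⁻¹ x = ind B x⁻¹ := by
  unfold ind; simp only [Finset.mem_inv']

/-- the number of factorisations is Bruhat-decreasing -/
theorem fac_dec {B₂ B₁ : Finset (Perm α)} (h₂ : IsDown B₂) (h₁ : IsDown B₁) :
    Dec (fac B₂ B₁) := by
  have := conv_dec (f := ind B₂⁻¹) (h := ind B₁) (ind_dec (isDown_inv h₂)) (ind_dec h₁)
  have he : (fun x => ∑ y, ind B₂⁻¹ y * ind B₁ (y * x)) = fac B₂ B₁ := by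
    funext z
    unfold fac
    refine Fintype.sum_equiv (Equiv.inv (Perm α)) _ _ (fun y => ?_)
    simp [ind_inv]
  rwa [he] at this

/-- the product of two down-sets is a down-set (it is `[e, u₂ * u₁]`, Demazure product, when
`B_i = [e, u_i]`) -/
theorem isDown_mul {B₂ B₁ : Finset (Perm α)} (h₂ : IsDown B₂) (h₁ : IsDown B₁) :
    IsDown (B₂ * B₁) := by
  intro x x' h hx'
  rw [← fac_pos_iff] at hx' ⊢
  exact lt_of_lt_of_le hx' (fac_dec h₂ h₁ _ _ h)

/-- increasing and nonnegative on `B`, divided by the number of factorisations -/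
theorem incOn_div {B₂ B₁ : Finset (Perm α)} (h₂ : IsDown B₂) (h₁ : IsDown B₁)
    {P : Perm α → ℝ} (hP : IncOn (B₂ * B₁) P) (h0 : ∀ z ∈ B₂ * B₁, 0 ≤ P z) :
    IncOn (B₂ * B₁) (fun z => P z / fac B₂ B₁ z) := by
  intro x x' hx hx' h
  exact div_le_div₀ (h0 _ hx') (hP _ _ hx hx' h) (fac_pos_iff.2 hx') (fac_dec h₂ h₁ _ _ h)

/-- law of the right (first) factor `x` of `z = y * x`, for the uniform factorisation -/
noncomputable def margR (B₂ B₁ : Finset (Perm α)) (P : Perm α → ℝ) (x : Perm α) : ℝ :=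
  ind B₁ x * ∑ y, ind B₂ y * (P (y * x) / fac B₂ B₁ (y * x))

/-- law of the left (second) factor `y` of `z = y * x`, for the uniform factorisation -/
noncomputable def margL (B₂ B₁ : Finset (Perm α)) (P : Perm α → ℝ) (y : Perm α) : ℝ :=
  ind B₂ y * ∑ x, ind B₁ x * (P (y * x) / fac B₂ B₁ (y * x))

/-- **Theorem A, right factor.** -/
theorem margR_inc {B₂ B₁ : Finset (Perm α)} (h₂ : IsDown B₂) (h₁ : IsDown B₁)
    {P : Perm α → ℝ} (hP : IncOn (B₂ * B₁) P) (h0 : ∀ z ∈ B₂ * B₁, 0 ≤ P z) :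
    IncOn B₁ (margR B₂ B₁ P) := by
  intro x x' hx hx' h
  unfold margR
  rw [show ind B₁ x = 1 from if_pos hx, show ind B₁ x' = 1 from if_pos hx', one_mul, one_mul]
  exact conv_inc_of (B := B₂ * B₁) (f := ind B₂) (h := fun z => P z / fac B₂ B₁ z) (ind_dec h₂)
    (incOn_div h₂ h₁ hP h0) h (fun y hy =>
      ⟨Finset.mul_mem_mul (ind_ne_zero.1 hy) hx, Finset.mul_mem_mul (ind_ne_zero.1 hy) hx'⟩)

/-- **Theorem A, left factor.** -/
theorem margL_inc {B₂ B₁ : Finset (Perm α)} (h₂ : IsDown B₂) (h₁ : IsDown B₁)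
    {P : Perm α → ℝ} (hP : IncOn (B₂ * B₁) P) (h0 : ∀ z ∈ B₂ * B₁, 0 ≤ P z) :
    IncOn B₂ (margL B₂ B₁ P) := by
  intro y y' hy hy' h
  unfold margL
  rw [show ind B₂ y = 1 from if_pos hy, show ind B₂ y' = 1 from if_pos hy', one_mul, one_mul]
  have e : ∀ w : Perm α, ∑ x, ind B₁ x * (P (w * x) / fac B₂ B₁ (w * x)) =
      ∑ x, ind B₁⁻¹ x * (fun z => P z⁻¹ / fac B₂ B₁ z⁻¹) (x * w⁻¹) := by
    intro w
    refine Fintype.sum_equiv (Equiv.inv (Perm α)) _ _ (fun x => ?_)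
    simp [ind_inv]
  rw [e, e]
  refine conv_inc_of (B := (B₂ * B₁)⁻¹) (f := ind B₁⁻¹)
    (h := fun z => P z⁻¹ / fac B₂ B₁ z⁻¹) (ind_dec (isDown_inv h₁)) ?_ (up_inv h) ?_
  · intro z z' hz hz' hzz
    rw [Finset.mem_inv'] at hz hz'
    exact incOn_div h₂ h₁ hP h0 _ _ hz hz' (up_inv hzz)
  · intro x hx
    rw [ind_inv, ind_ne_zero] at hx
    rw [Finset.mem_inv', Finset.mem_inv', mul_inv_rev, mul_inv_rev, inv_inv, inv_inv]
    exact ⟨Finset.mul_mem_mul hy hx, Finset.mul_mem_mul hy' hx⟩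

theorem margR_nonneg {B₂ B₁ : Finset (Perm α)} {P : Perm α → ℝ}
    (h0 : ∀ z ∈ B₂ * B₁, 0 ≤ P z) (x : Perm α) : 0 ≤ margR B₂ B₁ P x := by
  unfold margR
  by_cases hx : x ∈ B₁
  · refine mul_nonneg (ind_nonneg _ _) (Finset.sum_nonneg (fun y _ => ?_))
    by_cases hy : y ∈ B₂
    · exact mul_nonneg (ind_nonneg _ _) (div_nonneg (h0 _ (Finset.mul_mem_mul hy hx))
        (fac_nonneg _ _ _))
    · rw [show ind B₂ y = 0 from if_neg hy, zero_mul]
  · rw [show ind B₁ x = 0 from if_neg hx, zero_mul]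

theorem margL_nonneg {B₂ B₁ : Finset (Perm α)} {P : Perm α → ℝ}
    (h0 : ∀ z ∈ B₂ * B₁, 0 ≤ P z) (y : Perm α) : 0 ≤ margL B₂ B₁ P y := by
  unfold margL
  by_cases hy : y ∈ B₂
  · refine mul_nonneg (ind_nonneg _ _) (Finset.sum_nonneg (fun x _ => ?_))
    by_cases hx : x ∈ B₁
    · exact mul_nonneg (ind_nonneg _ _) (div_nonneg (h0 _ (Finset.mul_mem_mul hy hx))
        (fac_nonneg _ _ _))
    · rw [show ind B₁ x = 0 from if_neg hx, zero_mul]
  · rw [show ind B₂ y = 0 from if_neg hy, zero_mul]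

theorem margR_off {B₂ B₁ : Finset (Perm α)} {P : Perm α → ℝ} {x : Perm α} (hx : x ∉ B₁) :
    margR B₂ B₁ P x = 0 := by
  unfold margR; rw [show ind B₁ x = 0 from if_neg hx, zero_mul]

theorem margL_off {B₂ B₁ : Finset (Perm α)} {P : Perm α → ℝ} {y : Perm α} (hy : y ∉ B₂) :
    margL B₂ B₁ P y = 0 := by
  unfold margL; rw [show ind B₂ y = 0 from if_neg hy, zero_mul]

end VPBruhat
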