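/-
P235-M, helper549.  Uniform bridging along an arbitrary binary tree of windows: the joint law of
the random configuration, and the theorem every node has a Bruhat-increasing law.
-/
import Vale.Agent.P235.R2.H549.Bridge

namespace VPBruhat

open Equiv Finset
open scoped Pointwise

variable (α : Type*) [LinearOrder α] [Fintype α]

/-- binary trees of windows; the leaves carry the sets of permutations allowed there -/
inductive BT : Type _
  | leaf (B : Finset (Perm α)) : BT
  | node (l r : BT) : BT

variable {α}

namespace BT

/-- the set of all products over the window (first half = left child = right factor) -/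
def set : BT α → Finset (Perm α)
  | leaf B => B
  | node l r => r.set * l.set

/-- all leaves are nonempty down-sets -/
def Ok : BT α → Prop
  | leaf B => IsDown B ∧ B.Nonempty
  | node l r => l.Ok ∧ r.Ok

/-- configurations: one permutation at each leaf -/
def Conf : BT α → Type _
  | leaf _ => Perm α
  | node l r => l.Conf × r.Conf

noncomputable instance instFintypeConf : (t : BT α) → Fintype t.Conf
  | leaf _ => (inferInstance : Fintype (Perm α))
  | node l r => @instFintypeProd _ _ (instFintypeConf l) (instFintypeConf r)

/-- the product over the window -/
def val : (t : BT α) → t.Conf → Perm α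
  | leaf _, x => x
  | node l r, c => r.val c.2 * l.val c.1

/-- conditional law of the configuration given the product `z` of the window: uniform
factorisations at every node -/
noncomputable def ker : (t : BT α) → Perm α → t.Conf → ℝ
  | leaf B, z, x => if val (leaf B) x = z then ind B z else 0
  | node l r, z, c =>
      if r.val c.2 * l.val c.1 = z then
        l.ker (l.val c.1) c.1 * r.ker (r.val c.2) c.2 / fac r.set l.set z else 0

/-- positions (windows) in the tree -/
inductive Node : BT α → Type _
  | here (t : BT α) : Node t
  | left {l : BT α} (r : BT α) (w : Node l) : Node (BT.node l r)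
  | right (l : BT α) {r : BT α} (w : Node r) : Node (BT.node l r)

/-- the allowed set of a window -/
def Node.set : {t : BT α} → Node t → Finset (Perm α)
  | _, .here t => t.set
  | _, .left _ w => w.set
  | _, .right _ w => w.set

/-- the product of a configuration over a window -/
def Node.val : {t : BT α} → Node t → t.Conf → Perm α
  | _, .here t, c => t.val c
  | _, .left _ w, c => w.val c.1
  | _, .right _ w, c => w.val c.2

theorem isDown_set : {t : BT α} → t.Ok → IsDown t.set
  | leaf _, h => h.1
  | node _ _, h => isDown_mul (isDown_set h.2) (isDown_set h.1)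

theorem ker_nonneg : (t : BT α) → (z : Perm α) → (c : t.Conf) → 0 ≤ t.ker z c
  | leaf B, z, x => by
      unfold ker; split_ifs
      · exact ind_nonneg _ _
      · exact le_rfl
  | node l r, z, c => by
      unfold ker; split_ifs
      · exact div_nonneg (mul_nonneg (ker_nonneg l _ _) (ker_nonneg r _ _)) (fac_nonneg _ _ _)
      · exact le_rfl

theorem ker_ne_zero : (t : BT α) → (z : Perm α) → (c : t.Conf) → t.ker z c ≠ 0 →
    t.val c = z ∧ z ∈ t.set
  | leaf B, z, x, h => by
      unfold ker at h
      split_ifs at h with h1
      · exact ⟨h1, ind_ne_zero.1 h⟩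
      · exact absurd rfl h
  | node l r, z, c, h => by
      unfold ker at h
      split_ifs at h with h1
      · have h2 : l.ker (l.val c.1) c.1 ≠ 0 := by
          intro hc; rw [hc] at h; simp at h
        have h3 : r.ker (r.val c.2) c.2 ≠ 0 := by
          intro hc; rw [hc] at h; simp at h
        have := (ker_ne_zero l _ _ h2).2
        have := (ker_ne_zero r _ _ h3).2
        refine ⟨h1, ?_⟩
        rw [← h1]
        exact Finset.mul_mem_mul ‹_› ‹_›
      · exact absurd rfl h

/-- sum over configurations = sum over values of the window -/
theorem sum_fiber {t : BT α} (F : t.Conf → ℝ) :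
    ∑ c, F c = ∑ z : Perm α, ∑ c, if t.val c = z then F c else 0 := by
  classical
  rw [Finset.sum_comm]
  refine Finset.sum_congr rfl (fun c _ => ?_)
  simp

theorem sum_ker : (t : BT α) → (z : Perm α) → ∑ c, t.ker z c = ind t.set z
  | leaf B, z => by
      classical
      show ∑ x : Perm α, (if x = z then ind B z else 0) = ind B z
      simp
  | node l r, z => by
      classical
      have hl : ∀ x, ∑ a, (if l.val a = x then l.ker (l.val a) a else 0) = ind l.set x := by
        intro x
        rw [← sum_ker l x]
        refine Finset.sum_congr rfl (fun a _ => ?_)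
        by_cases h : l.val a = x
        · rw [if_pos h, h]
        · rw [if_neg h]
          by_contra hc
          exact h (ker_ne_zero l x a (Ne.symm hc)).1
      have hr : ∀ y, ∑ b, (if r.val b = y then r.ker (r.val b) b else 0) = ind r.set y := by
        intro y
        rw [← sum_ker r y]
        refine Finset.sum_congr rfl (fun b _ => ?_)
        by_cases h : r.val b = y
        · rw [if_pos h, h]
        · rw [if_neg h]
          by_contra hc
          exact h (ker_ne_zero r y b (Ne.symm hc)).1
      show ∑ c : l.Conf × r.Conf, (if r.val c.2 * l.val c.1 = z then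
        l.ker (l.val c.1) c.1 * r.ker (r.val c.2) c.2 / fac r.set l.set z else 0) = _
      have e : ∀ c : l.Conf × r.Conf, (if r.val c.2 * l.val c.1 = z then
          l.ker (l.val c.1) c.1 * r.ker (r.val c.2) c.2 / fac r.set l.set z else 0) =
          ∑ y : Perm α, ∑ x : Perm α, (if y * x = z then 1 / fac r.set l.set z else 0) *
            ((if l.val c.1 = x then l.ker (l.val c.1) c.1 else 0) *
              (if r.val c.2 = y then r.ker (r.val c.2) c.2 else 0)) := by
        intro c
        rw [Finset.sum_eq_single (r.val c.2), Finset.sum_eq_single (l.val c.1)]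
        · simp only [if_true]
          split_ifs <;> ring
        · intro b _ hb
          rw [if_neg (Ne.symm hb)]; simp
        · simp
        · intro b _ hb
          refine Finset.sum_eq_zero (fun x _ => ?_)
          rw [if_neg (Ne.symm hb : ¬ r.val c.2 = b)]; simp
        · simp
      rw [Finset.sum_congr rfl (fun c _ => e c), Finset.sum_comm]
      have e2 : ∀ y : Perm α, ∑ c : l.Conf × r.Conf,
          ∑ x : Perm α, (if y * x = z then 1 / fac r.set l.set z else 0) *
            ((if l.val c.1 = x then l.ker (l.val c.1) c.1 else 0) *
              (if r.val c.2 = y then r.ker (r.val c.2) c.2 else 0)) =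
          1 / fac r.set l.set z * (ind r.set y * ind l.set (y⁻¹ * z)) := by
        intro y
        rw [Finset.sum_comm]
        have e3 : ∀ x : Perm α, ∑ c : l.Conf × r.Conf,
            (if y * x = z then 1 / fac r.set l.set z else 0) *
            ((if l.val c.1 = x then l.ker (l.val c.1) c.1 else 0) *
              (if r.val c.2 = y then r.ker (r.val c.2) c.2 else 0)) =
            (if y * x = z then 1 / fac r.set l.set z else 0) * (ind l.set x * ind r.set y) := by
          intro x
          rw [← Finset.mul_sum, Fintype.sum_prod_type, ← hl x, ← hr y, Finset.sum_mul_sum]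
        rw [Finset.sum_congr rfl (fun x _ => e3 x), Finset.sum_eq_single (y⁻¹ * z)]
        · simp only [mul_inv_cancel_left, if_true]; ring
        · intro x _ hx
          rw [if_neg, zero_mul]
          intro hc
          exact hx (by rw [← hc]; simp)
        · simp
      rw [Finset.sum_congr rfl (fun y _ => e2 y), ← Finset.mul_sum]
      change 1 / fac r.set l.set z * fac r.set l.set z = ind (r.set * l.set) z
      by_cases h : z ∈ r.set * l.set
      · rw [show ind (r.set * l.set) z = 1 from if_pos h, one_div, inv_mul_cancel₀]
        exact (fac_pos_iff.2 h).ne'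
      · rw [show ind (r.set * l.set) z = 0 from if_neg h]
        have : fac r.set l.set z = 0 :=
          le_antisymm (not_lt.1 (fun hc => h (fac_pos_iff.1 hc))) (fac_nonneg _ _ _)
        rw [this]; simp

/-- the joint law of the configuration when the product of the root window has law `P` -/
noncomputable def law (t : BT α) (P : Perm α → ℝ) (c : t.Conf) : ℝ :=
  P (t.val c) * t.ker (t.val c) c

/-- the law of the product over the window `w` -/
noncomputable def Node.law {t : BT α} (w : Node t) (P : Perm α → ℝ) (x : Perm α) : ℝ :=
  ∑ c, if w.val c = x then t.law P c else 0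

theorem law_nonneg {t : BT α} {P : Perm α → ℝ} (h0 : ∀ z ∈ t.set, 0 ≤ P z) (c : t.Conf) :
    0 ≤ t.law P c := by
  unfold law
  by_cases h : t.ker (t.val c) c = 0
  · rw [h, mul_zero]
  · exact mul_nonneg (h0 _ (ker_ne_zero _ _ _ h).2) (ker_nonneg _ _ _)

theorem sum_ker_fiber (t : BT α) (z : Perm α) :
    ∑ c, (if t.val c = z then t.ker (t.val c) c else 0) = ind t.set z := by
  rw [← sum_ker t z]
  refine Finset.sum_congr rfl (fun a _ => ?_)
  by_cases h : t.val a = z
  · rw [if_pos h, h]
  · rw [if_neg h]
    by_contra hc
    exact h (ker_ne_zero t z a (Ne.symm hc)).1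

/-- the law of the root window is `P` (restricted to the allowed set) -/
theorem here_law (t : BT α) (P : Perm α → ℝ) (z : Perm α) :
    (Node.here t).law P z = ind t.set z * P z := by
  unfold Node.law law
  rw [← sum_ker_fiber, Finset.sum_mul]
  refine Finset.sum_congr rfl (fun c _ => ?_)
  show (if t.val c = z then _ else _) = _
  split_ifs with h
  · rw [h]; ring
  · ring

theorem sum_law (t : BT α) (P : Perm α → ℝ) :
    ∑ c, t.law P c = ∑ z ∈ t.set, P z := by
  classical
  rw [sum_fiber, ← Finset.sum_subset (Finset.subset_univ t.set)]
  · refine Finset.sum_congr rfl (fun z hz => ?_)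
    have := here_law t P z
    rw [show ind t.set z = 1 from if_pos hz, one_mul] at this
    exact this
  · intro z _ hz
    have := here_law t P z
    rw [show ind t.set z = 0 from if_neg hz, zero_mul] at this
    exact this

/-- the law of the left half is again a bridging law -/
theorem sum_right (l r : BT α) (P : Perm α → ℝ) (a : l.Conf) :
    ∑ b : r.Conf, (BT.node l r).law P (a, b) = l.law (margR r.set l.set P) a := by
  classical
  unfold law
  have e : ∀ b : r.Conf, P ((BT.node l r).val (a, b)) *
      (BT.node l r).ker ((BT.node l r).val (a, b)) (a, b) =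
      l.ker (l.val a) a * (r.ker (r.val b) b *
        (P (r.val b * l.val a) / fac r.set l.set (r.val b * l.val a))) := by
    intro b
    show P (r.val b * l.val a) * (if r.val b * l.val a = r.val b * l.val a then
      l.ker (l.val a) a * r.ker (r.val b) b / fac r.set l.set (r.val b * l.val a) else 0) = _
    rw [if_pos rfl]; ring
  rw [Finset.sum_congr rfl (fun b _ => e b), ← Finset.mul_sum]
  by_cases ha : l.ker (l.val a) a = 0
  · rw [ha]; simp
  have hmem := (ker_ne_zero _ _ _ ha).2
  unfold margR
  rw [show ind l.set (l.val a) = 1 from if_pos hmem, one_mul, mul_comm]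
  congr 1
  rw [sum_fiber]
  refine Finset.sum_congr rfl (fun y _ => ?_)
  rw [← sum_ker_fiber r y, Finset.sum_mul]
  refine Finset.sum_congr rfl (fun b _ => ?_)
  by_cases h : r.val b = y
  · rw [if_pos h, if_pos h, h]
  · rw [if_neg h, if_neg h, zero_mul]

/-- the law of the right half is again a bridging law -/
theorem sum_left (l r : BT α) (P : Perm α → ℝ) (b : r.Conf) :
    ∑ a : l.Conf, (BT.node l r).law P (a, b) = r.law (margL r.set l.set P) b := by
  classical
  unfold law
  have e : ∀ a : l.Conf, P ((BT.node l r).val (a, b)) *
      (BT.node l r).ker ((BT.node l r).val (a, b)) (a, b) =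
      r.ker (r.val b) b * (l.ker (l.val a) a *
        (P (r.val b * l.val a) / fac r.set l.set (r.val b * l.val a))) := by
    intro a
    show P (r.val b * l.val a) * (if r.val b * l.val a = r.val b * l.val a then
      l.ker (l.val a) a * r.ker (r.val b) b / fac r.set l.set (r.val b * l.val a) else 0) = _
    rw [if_pos rfl]; ring
  rw [Finset.sum_congr rfl (fun b _ => e b), ← Finset.mul_sum]
  by_cases hb : r.ker (r.val b) b = 0
  · rw [hb]; simp
  have hmem := (ker_ne_zero _ _ _ hb).2
  unfold margL
  rw [show ind r.set (r.val b) = 1 from if_pos hmem, one_mul, mul_comm]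
  congr 1
  rw [sum_fiber]
  refine Finset.sum_congr rfl (fun x _ => ?_)
  rw [← sum_ker_fiber l x, Finset.sum_mul]
  refine Finset.sum_congr rfl (fun a _ => ?_)
  by_cases h : l.val a = x
  · rw [if_pos h, if_pos h, h]
  · rw [if_neg h, if_neg h, zero_mul]

/-- **Uniform bridging along any binary tree**: if the root law is Bruhat-increasing (and
nonnegative) on the allowed set, then at every window the law of the product is supported on the
allowed set of the window, nonnegative and Bruhat-increasing there, and has the same total mass. -/
theorem node_law : {t : BT α} → (hok : t.Ok) → {P : Perm α → ℝ} → (h0 : ∀ z ∈ t.set, 0 ≤ P z) →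
    (hP : IncOn t.set P) → (w : Node t) →
    (∀ x, 0 ≤ w.law P x) ∧ (∀ x, x ∉ w.set → w.law P x = 0) ∧ IncOn w.set (w.law P)
  | t, hok, P, h0, hP, .here _ => by
      refine ⟨?_, ?_, ?_⟩
      · intro x; rw [here_law]
        by_cases hx : x ∈ t.set
        · exact mul_nonneg (ind_nonneg _ _) (h0 x hx)
        · rw [show ind t.set x = 0 from if_neg hx, zero_mul]
      · intro x hx
        rw [here_law, show ind t.set x = 0 from if_neg hx, zero_mul]
      · intro x x' hx hx' h
        change x ∈ t.set at hx
        change x' ∈ t.set at hx'
        rw [here_law, here_law, show ind t.set x = 1 from if_pos hx,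
          show ind t.set x' = 1 from if_pos hx', one_mul, one_mul]
        exact hP _ _ hx hx' h
  | BT.node l r, hok, P, h0, hP, .left _ w => by
      have ih := node_law (t := l) hok.1 (P := margR r.set l.set P)
        (fun z _ => margR_nonneg h0 z) (margR_inc (isDown_set hok.2) (isDown_set hok.1) hP h0) w
      have e : Node.law (t := BT.node l r) (Node.left r w) P = w.law (margR r.set l.set P) := by
        funext x
        show ∑ c : l.Conf × r.Conf, (if w.val c.1 = x then (BT.node l r).law P c else 0) = _
        rw [Fintype.sum_prod_type]
        refine Finset.sum_congr rfl (fun a _ => ?_)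
        by_cases h : w.val a = x
        · simp only [h, if_true]; exact sum_right l r P a
        · simp only [h, if_false]; simp
      rw [e]; exact ih
  | BT.node l r, hok, P, h0, hP, .right _ w => by
      have ih := node_law (t := r) hok.2 (P := margL r.set l.set P)
        (fun z _ => margL_nonneg h0 z) (margL_inc (isDown_set hok.2) (isDown_set hok.1) hP h0) w
      have e : Node.law (t := BT.node l r) (Node.right l w) P = w.law (margL r.set l.set P) := by
        funext x
        show ∑ c : l.Conf × r.Conf, (if w.val c.2 = x then (BT.node l r).law P c else 0) = _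
        rw [Fintype.sum_prod_type, Finset.sum_comm]
        refine Finset.sum_congr rfl (fun b _ => ?_)
        by_cases h : w.val b = x
        · simp only [h, if_true]; exact sum_left l r P b
        · simp only [h, if_false]; simp
      rw [e]; exact ih

/-- total mass of the law of a window -/
theorem node_mass {t : BT α} (w : Node t) (P : Perm α → ℝ) :
    ∑ x, w.law P x = ∑ z ∈ t.set, P z := by
  classical
  unfold Node.law
  rw [Finset.sum_comm, ← sum_law]
  refine Finset.sum_congr rfl (fun c _ => ?_)
  simp

end BT

end VPBruhat
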