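/-
P235-M, helper549.  Lifting property of the Bruhat order of S_n, principal ideals, products with
{1, s}, and the invariance of the expected flux under stripping letters s_j with j + 1 not equal
to a.
-/
import Vale.Agent.P235.R2.H549.Bridge
import Vale.Agent.P235.R2.H549.Gamma

namespace VPBruhat

open Equiv Finset
open scoped Pointwise

/-- adjacent transposition `s_j = (j, j+1)` -/
def adj {n : ℕ} (j : ℕ) (h : j + 1 < n) : Perm (Fin n) :=
  swap ⟨j, Nat.lt_of_succ_lt h⟩ ⟨j + 1, h⟩

theorem adj_mul_self {n j : ℕ} (h : j + 1 < n) : adj j h * adj j h = 1 := swap_mul_self _ _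

theorem adj_inv {n j : ℕ} (h : j + 1 < n) : (adj j h)⁻¹ = adj j h := swap_inv _ _

theorem adj_adj {n j : ℕ} (h : j + 1 < n) (x : Fin n) : adj j h (adj j h x) = x := by
  rw [← Perm.mul_apply, adj_mul_self, Perm.one_apply]

theorem adj_mul_swap {n j : ℕ} (h : j + 1 < n) (i k : Fin n) :
    adj j h * swap (adj j h i) (adj j h k) = swap i k * adj j h := by
  have := mul_swap_eq (adj j h) (adj j h i) (adj j h k)
  rwa [adj_adj, adj_adj] at this

theorem adj_val {n j : ℕ} (h : j + 1 < n) (x : Fin n) :
    ((adj j h x : Fin n) : ℕ) = if (x : ℕ) = j then j + 1 else if (x : ℕ) = j + 1 then j else x := by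
  unfold adj
  rw [swap_apply_def]
  by_cases h1 : (x : ℕ) = j
  · rw [if_pos (Fin.ext h1), if_pos h1]
  · rw [if_neg (fun hc => h1 (by rw [hc])), if_neg h1]
    by_cases h2 : (x : ℕ) = j + 1
    · rw [if_pos (Fin.ext h2), if_pos h2]
    · rw [if_neg (fun hc => h2 (by rw [hc])), if_neg h2]

/-- adjacent transpositions keep the order of all other pairs -/
theorem adj_lt {n j : ℕ} (h : j + 1 < n) {i k : Fin n} (hik : i < k)
    (hne : ¬ ((i : ℕ) = j ∧ (k : ℕ) = j + 1)) : adj j h i < adj j h k := by
  rw [Fin.lt_def, adj_val, adj_val]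
  have := Fin.lt_def.1 hik
  split_ifs <;> omega

/-- the Z property -/
theorem up_mul_adj {n j : ℕ} (h : j + 1 < n) {v v' : Perm (Fin n)} (hv : Up v v') :
    v * adj j h = v' ∨ Up (v * adj j h) (v' * adj j h) := by
  obtain ⟨i, k, hik, hlt, rfl⟩ := hv
  by_cases hne : (i : ℕ) = j ∧ (k : ℕ) = j + 1
  · left
    have hi : i = ⟨j, Nat.lt_of_succ_lt h⟩ := Fin.ext hne.1
    have hk : k = ⟨j + 1, h⟩ := Fin.ext hne.2
    rw [hi, hk]; rfl
  · right
    refine ⟨adj j h i, adj j h k, adj_lt h hik hne, ?_, ?_⟩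
    · simp only [Perm.mul_apply, adj_adj]; exact hlt
    · rw [mul_assoc, mul_assoc, adj_mul_swap h i k]

theorem ble_trans {α : Type*} [LinearOrder α] {u v w : Perm α} (h1 : BLe u v) (h2 : BLe v w) :
    BLe u w := Relation.ReflTransGen.trans h1 h2

theorem Up.ble {α : Type*} [LinearOrder α] {u v : Perm α} (h : Up u v) : BLe u v :=
  Relation.ReflTransGen.single h

/-- lifting, upper form -/
theorem lift_up {n j : ℕ} (h : j + 1 < n) {v u : Perm (Fin n)} (hvu : BLe v u) :
    BLe (v * adj j h) u ∨ BLe (v * adj j h) (u * adj j h) := by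
  induction hvu using Relation.ReflTransGen.head_induction_on with
  | refl => exact Or.inr Relation.ReflTransGen.refl
  | head hv hvu ih =>
    rcases up_mul_adj h hv with h1 | h1
    · left; rw [h1]; exact hvu
    · rcases ih with h2 | h2
      · exact Or.inl (ble_trans h1.ble h2)
      · exact Or.inr (ble_trans h1.ble h2)

/-- lifting, lower form -/
theorem lift_down {n j : ℕ} (h : j + 1 < n) {v u : Perm (Fin n)} (hvu : BLe v u) :
    BLe v (u * adj j h) ∨ BLe (v * adj j h) (u * adj j h) := by
  induction hvu with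
  | refl => exact Or.inr Relation.ReflTransGen.refl
  | tail hv hu ih =>
    rename_i b c
    rcases up_mul_adj h hu with h1 | h1
    · left
      rw [← h1, mul_assoc, adj_mul_self, mul_one]; exact hv
    · rcases ih with h2 | h2
      · exact Or.inl (ble_trans h2 h1.ble)
      · exact Or.inr (ble_trans h2 h1.ble)

open scoped Classical in
/-- principal Bruhat ideals -/
noncomputable def ideal {α : Type*} [LinearOrder α] [Fintype α] (u : Perm α) :
    Finset (Perm α) := Finset.univ.filter (fun v => BLe v u)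

theorem mem_ideal {α : Type*} [LinearOrder α] [Fintype α] {u v : Perm α} :
    v ∈ ideal u ↔ BLe v u := by
  classical
  unfold ideal; simp

theorem isDown_ideal {α : Type*} [LinearOrder α] [Fintype α] (u : Perm α) :
    IsDown (ideal u) := by
  intro x x' h hx'
  rw [mem_ideal] at hx' ⊢
  exact ble_trans h.ble hx'

theorem ideal_inv {α : Type*} [LinearOrder α] [Fintype α] (u : Perm α) :
    ideal u⁻¹ = (ideal u)⁻¹ := by
  ext v
  rw [Finset.mem_inv', mem_ideal, mem_ideal]
  constructor
  · intro h; simpa using ble_inv h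
  · intro h; simpa using ble_inv h

/-- `{1, s_j}` -/
def letter {n : ℕ} (j : ℕ) (h : j + 1 < n) : Finset (Perm (Fin n)) := {1, adj j h}

theorem mem_letter {n j : ℕ} (h : j + 1 < n) {x : Perm (Fin n)} :
    x ∈ letter j h ↔ x = 1 ∨ x = adj j h := by
  unfold letter; simp

theorem letter_inv {n j : ℕ} (h : j + 1 < n) : (letter j h)⁻¹ = letter j h := by
  ext x
  rw [Finset.mem_inv', mem_letter, mem_letter]
  constructor
  · rintro (h1 | h1)
    · exact Or.inl (inv_eq_one.1 h1)
    · right; rw [← inv_inv x, h1, adj_inv]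
  · rintro (rfl | rfl)
    · left; simp
    · right; exact adj_inv h

theorem isDown_letter {n j : ℕ} (h : j + 1 < n) : IsDown (letter (n := n) j h) := by
  intro x x' hx hx'
  obtain ⟨i, k, hik, hlt, rfl⟩ := hx
  rw [mem_letter] at hx' ⊢
  rcases hx' with h1 | h1
  · exfalso
    have hx : x = swap i k := by
      have h2 : x * swap i k * swap i k = 1 * swap i k := by rw [h1]
      rw [mul_assoc, swap_mul_self, mul_one, one_mul] at h2
      exact h2
    rw [hx] at hlt
    simp only [swap_apply_left, swap_apply_right] at hlt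
    exact lt_asymm hik hlt
  · left
    have hx : x = adj j h * swap i k := by
      rw [← h1, mul_assoc, swap_mul_self, mul_one]
    have h2 : adj j h k < adj j h i := by
      rw [hx] at hlt
      simpa using hlt
    have h3 : (i : ℕ) = j ∧ (k : ℕ) = j + 1 := by
      by_contra hc
      exact lt_asymm (adj_lt h hik hc) h2
    have hi : i = ⟨j, Nat.lt_of_succ_lt h⟩ := Fin.ext h3.1
    have hk : k = ⟨j + 1, h⟩ := Fin.ext h3.2
    rw [hx, hi, hk]
    exact adj_mul_self h

/-- a principal ideal with a right descent factorises -/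
theorem ideal_mul_letter {n j : ℕ} (h : j + 1 < n) {D : Perm (Fin n)}
    (hD : Up (D * adj j h) D) : ideal D = ideal (D * adj j h) * letter j h := by
  ext v
  rw [mem_ideal, Finset.mem_mul]
  constructor
  · intro hv
    rcases lift_down h hv with h1 | h1
    · exact ⟨v, mem_ideal.2 h1, 1, (mem_letter h).2 (Or.inl rfl), mul_one _⟩
    · refine ⟨v * adj j h, mem_ideal.2 h1, adj j h, (mem_letter h).2 (Or.inr rfl), ?_⟩
      rw [mul_assoc, adj_mul_self, mul_one]
  · rintro ⟨y, hy, x, hx, rfl⟩
    rw [mem_ideal] at hy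
    have hyD : BLe y D := ble_trans hy hD.ble
    rcases (mem_letter h).1 hx with rfl | rfl
    · rw [mul_one]; exact hyD
    · rcases lift_up h hyD with h1 | h1
      · exact h1
      · exact ble_trans h1 hD.ble

/-- a principal ideal with a left descent factorises -/
theorem letter_mul_ideal {n j : ℕ} (h : j + 1 < n) {D : Perm (Fin n)}
    (hD : Up (adj j h * D) D) : ideal D = letter j h * ideal (adj j h * D) := by
  have h1 : Up (D⁻¹ * adj j h) D⁻¹ := by
    have := up_inv hD
    rwa [mul_inv_rev, adj_inv] at this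
  have h2 := ideal_mul_letter h h1
  have h3 : D⁻¹ * adj j h = (adj j h * D)⁻¹ := by rw [mul_inv_rev, adj_inv]
  rw [h3, ideal_inv, ideal_inv] at h2
  have h4 := congrArg (fun S : Finset (Perm (Fin n)) => S⁻¹) h2
  simp only [inv_inv, mul_inv_rev, letter_inv] at h4
  exact h4

/-- sums over factorisations -/
theorem sum_fac {α : Type*} [LinearOrder α] [Fintype α] (B₂ B₁ : Finset (Perm α))
    (F : Perm α → ℝ) :
    ∑ y, ind B₂ y * ∑ x, ind B₁ x * F (y * x) = ∑ z, fac B₂ B₁ z * F z := by
  have e : ∀ y : Perm α, ∑ x, ind B₁ x * F (y * x) = ∑ z, ind B₁ (y⁻¹ * z) * F z := by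
    intro y
    refine Fintype.sum_equiv (Equiv.mulLeft y) _ _ (fun x => ?_)
    simp
  simp only [e, fac, Finset.mul_sum, Finset.sum_mul]
  rw [Finset.sum_comm]
  refine Finset.sum_congr rfl (fun z _ => Finset.sum_congr rfl (fun y _ => ?_))
  ring

/-- expectation of a function of the product which only depends on the left factor -/
theorem sum_margL {α : Type*} [LinearOrder α] [Fintype α] {B₂ B₁ : Finset (Perm α)}
    (P g : Perm α → ℝ) (hg : ∀ y, ∀ x ∈ B₁, g (y * x) = g y) :
    ∑ y, margL B₂ B₁ P y * g y = ∑ z ∈ B₂ * B₁, P z * g z := by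
  classical
  have e1 : ∑ y, margL B₂ B₁ P y * g y =
      ∑ y, ind B₂ y * ∑ x, ind B₁ x * (P (y * x) / fac B₂ B₁ (y * x) * g (y * x)) := by
    refine Finset.sum_congr rfl (fun y _ => ?_)
    unfold margL
    rw [mul_assoc, Finset.sum_mul]
    congr 1
    refine Finset.sum_congr rfl (fun x _ => ?_)
    by_cases hx : x ∈ B₁
    · rw [hg y x hx]; ring
    · rw [show ind B₁ x = 0 from if_neg hx]; ring
  rw [e1, sum_fac B₂ B₁ (fun z => P z / fac B₂ B₁ z * g z),
    ← Finset.sum_subset (Finset.subset_univ (B₂ * B₁))]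
  · refine Finset.sum_congr rfl (fun z hz => ?_)
    have := (fac_pos_iff.2 hz).ne'
    field_simp
  · intro z _ hz
    have : fac B₂ B₁ z = 0 :=
      le_antisymm (not_lt.1 (fun hc => hz (fac_pos_iff.1 hc))) (fac_nonneg _ _ _)
    rw [this, zero_mul]

/-- expectation of a function of the product which only depends on the right factor -/
theorem sum_margR {α : Type*} [LinearOrder α] [Fintype α] {B₂ B₁ : Finset (Perm α)}
    (P g : Perm α → ℝ) (hg : ∀ x, ∀ y ∈ B₂, g (y * x) = g x) :
    ∑ x, margR B₂ B₁ P x * g x = ∑ z ∈ B₂ * B₁, P z * g z := by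
  classical
  have e1 : ∑ x, margR B₂ B₁ P x * g x =
      ∑ y, ind B₂ y * ∑ x, ind B₁ x * (P (y * x) / fac B₂ B₁ (y * x) * g (y * x)) := by
    have e2 : ∀ x, margR B₂ B₁ P x * g x =
        ∑ y, ind B₂ y * (ind B₁ x * (P (y * x) / fac B₂ B₁ (y * x) * g (y * x))) := by
      intro x
      unfold margR
      rw [mul_assoc, Finset.sum_mul, Finset.mul_sum]
      refine Finset.sum_congr rfl (fun y _ => ?_)
      by_cases hy : y ∈ B₂
      · rw [hg x y hy]; ring
      · rw [show ind B₂ y = 0 from if_neg hy]; ring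
    rw [Finset.sum_congr rfl (fun x _ => e2 x), Finset.sum_comm]
    refine Finset.sum_congr rfl (fun y _ => ?_)
    rw [Finset.mul_sum]
  rw [e1, sum_fac B₂ B₁ (fun z => P z / fac B₂ B₁ z * g z),
    ← Finset.sum_subset (Finset.subset_univ (B₂ * B₁))]
  · refine Finset.sum_congr rfl (fun z hz => ?_)
    have := (fac_pos_iff.2 hz).ne'
    field_simp
  · intro z _ hz
    have : fac B₂ B₁ z = 0 :=
      le_antisymm (not_lt.1 (fun hc => hz (fac_pos_iff.1 hc))) (fac_nonneg _ _ _)
    rw [this, zero_mul]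

/-- the flux is invariant under right multiplication by `s_j`, `j + 1 ≠ a` -/
theorem flux_mul_adj {n j : ℕ} (h : j + 1 < n) {a : ℕ} (ha : j + 1 ≠ a) (v : Perm (Fin n)) :
    flux a (v * adj j h) = flux a v := by
  unfold flux
  refine Finset.card_bij (fun x _ => adj j h x) ?_ ?_ ?_
  · intro x hx
    rw [Finset.mem_filter] at hx ⊢
    refine ⟨Finset.mem_univ _, ?_, hx.2.2⟩
    rw [adj_val]
    split_ifs <;> omega
  · intro x _ y _ hxy
    exact (adj j h).injective hxy
  · intro y hy
    rw [Finset.mem_filter] at hy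
    refine ⟨adj j h y, ?_, adj_adj h y⟩
    rw [Finset.mem_filter]
    refine ⟨Finset.mem_univ _, ?_, ?_⟩
    · rw [adj_val]
      split_ifs <;> omega
    · rw [Perm.mul_apply, adj_adj]; exact hy.2.2

/-- the flux is invariant under left multiplication by `s_j`, `j + 1 ≠ a` -/
theorem flux_adj_mul {n j : ℕ} (h : j + 1 < n) {a : ℕ} (ha : j + 1 ≠ a) (v : Perm (Fin n)) :
    flux a (adj j h * v) = flux a v := by
  unfold flux
  congr 1
  refine Finset.filter_congr (fun x _ => ?_)
  rw [Perm.mul_apply, adj_val]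
  split_ifs <;> omega

end VPBruhat
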