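/-
P235-M, helper549.  Reduction of the static statement for a principal ideal [e, D] to those D whose
only left and right descents are at the level a.
-/
import Vale.Agent.P235.R2.H549.Lift

namespace VPBruhat

open Equiv Finset
open scoped Pointwise

/-- a weight which increases along the Bruhat order -/
def wt {n : ℕ} (v : Perm (Fin n)) : ℕ := ∑ i : Fin n, (n - (i : ℕ)) * (v i : ℕ)

theorem wt_lt {n : ℕ} {v v' : Perm (Fin n)} (h : Up v v') : wt v < wt v' := by
  classical
  obtain ⟨i, k, hik, hlt, rfl⟩ := h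
  unfold wt
  have hne : i ≠ k := hik.ne
  have hk : k ∈ (Finset.univ.erase i : Finset (Fin n)) :=
    Finset.mem_erase.2 ⟨hne.symm, Finset.mem_univ _⟩
  rw [← Finset.add_sum_erase _ _ (Finset.mem_univ i),
    ← Finset.add_sum_erase _ _ (Finset.mem_univ i), ← Finset.add_sum_erase _ _ hk,
    ← Finset.add_sum_erase _ _ hk]
  have e : ∑ x ∈ (Finset.univ.erase i).erase k, (n - (x : ℕ)) * ((v * swap i k) x : ℕ) =
      ∑ x ∈ (Finset.univ.erase i).erase k, (n - (x : ℕ)) * (v x : ℕ) := by
    refine Finset.sum_congr rfl (fun x hx => ?_)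
    rw [Finset.mem_erase, Finset.mem_erase] at hx
    rw [Perm.mul_apply, swap_apply_of_ne_of_ne hx.2.1 hx.1]
  rw [e]
  simp only [Perm.mul_apply, swap_apply_left, swap_apply_right]
  have h1 : (i : ℕ) < k := hik
  have h2 : (v i : ℕ) < v k := hlt
  have h3 : (k : ℕ) < n := k.2
  obtain ⟨p, hp⟩ : ∃ p, n - (k : ℕ) = p := ⟨_, rfl⟩
  obtain ⟨q, hq⟩ : ∃ q, (k : ℕ) - i = q := ⟨_, rfl⟩
  have hn : n - (i : ℕ) = p + q := by omega
  obtain ⟨s, hs⟩ : ∃ s, (v k : ℕ) = v i + s := ⟨(v k : ℕ) - v i, by omega⟩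
  rw [hn, hp, hs]
  have hq0 : 0 < q := by omega
  have hs0 : 0 < s := by omega
  have : 0 < q * s := Nat.mul_pos hq0 hs0
  nlinarith

theorem up_of_right_descent {n j : ℕ} (h : j + 1 < n) {D : Perm (Fin n)}
    (hD : D ⟨j + 1, h⟩ < D ⟨j, Nat.lt_of_succ_lt h⟩) : Up (D * adj j h) D := by
  refine ⟨⟨j, Nat.lt_of_succ_lt h⟩, ⟨j + 1, h⟩, Fin.lt_def.2 (Nat.lt_succ_self j), ?_, ?_⟩
  · simp only [Perm.mul_apply, adj, swap_apply_left, swap_apply_right]; exact hD
  · change D = D * adj j h * adj j h
    rw [mul_assoc, adj_mul_self, mul_one]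

theorem up_of_left_descent {n j : ℕ} (h : j + 1 < n) {D : Perm (Fin n)}
    (hD : D⁻¹ ⟨j + 1, h⟩ < D⁻¹ ⟨j, Nat.lt_of_succ_lt h⟩) : Up (adj j h * D) D := by
  have := up_inv (up_of_right_descent h hD)
  rwa [mul_inv_rev, adj_inv, inv_inv] at this

/-- increasing on both sides of the level `a` -/
def SortedAt {n : ℕ} (a : ℕ) (D : Perm (Fin n)) : Prop :=
  ∀ (j : ℕ) (h : j + 1 < n), j + 1 ≠ a → D ⟨j, Nat.lt_of_succ_lt h⟩ < D ⟨j + 1, h⟩

/-- the statement for one principal ideal -/
def Serves {n : ℕ} (c : ℝ) (a : ℕ) (D : Perm (Fin n)) : Prop :=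
  ∀ P : Perm (Fin n) → ℝ, IncOn (ideal D) P → (∀ z ∈ ideal D, 0 ≤ P z) →
    c * flux a D * ∑ z ∈ ideal D, P z ≤ ∑ z ∈ ideal D, P z * flux a z

theorem sum_on {α : Type*} [LinearOrder α] [Fintype α] {B : Finset (Perm α)} {P : Perm α → ℝ}
    (hoff : ∀ z, z ∉ B → P z = 0) (g : Perm α → ℝ) :
    ∑ z ∈ B, P z * g z = ∑ z, P z * g z :=
  Finset.sum_subset (Finset.subset_univ B) (fun z _ hz => by rw [hoff z hz, zero_mul])

/-- reduction to `D` which are sorted on both sides of `a`, and so is `D⁻¹` -/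
theorem serves_of_sorted {n : ℕ} {c : ℝ} {a : ℕ}
    (base : ∀ D : Perm (Fin n), SortedAt a D → SortedAt a D⁻¹ → Serves c a D) :
    ∀ D : Perm (Fin n), Serves c a D := by
  intro D
  induction hw : wt D using Nat.strong_induction_on generalizing D with
  | _ w ih =>
  subst hw
  by_cases h1 : SortedAt a D
  · by_cases h2 : SortedAt a D⁻¹
    · exact base D h1 h2
    · -- a left descent
      unfold SortedAt at h2
      push Not at h2
      obtain ⟨j, h, hja, hd⟩ := h2
      have hd' : D⁻¹ ⟨j + 1, h⟩ < D⁻¹ ⟨j, Nat.lt_of_succ_lt h⟩ := by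
        refine lt_of_le_of_ne hd (fun he => ?_)
        have := congrArg Fin.val (D⁻¹.injective he)
        simp at this
      have hup := up_of_left_descent h hd'
      have hI := letter_mul_ideal h hup
      have ih' := ih _ (wt_lt hup) (adj j h * D) rfl
      intro P hP h0
      rw [hI] at hP h0 ⊢
      have hinc := margR_inc (isDown_letter h) (isDown_ideal _) hP h0
      have hnn : ∀ x ∈ ideal (adj j h * D), 0 ≤
          margR (letter j h) (ideal (adj j h * D)) P x := fun x _ => margR_nonneg h0 x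
      have hmain := ih' _ hinc hnn
      have hoff : ∀ z, z ∉ ideal (adj j h * D) →
          margR (letter j h) (ideal (adj j h * D)) P z = 0 := fun z hz => margR_off hz
      rw [flux_adj_mul h hja] at hmain
      have e1 := sum_margR (B₂ := letter j h) (B₁ := ideal (adj j h * D)) P
        (fun z => (flux a z : ℝ)) (fun x y hy => by
          rcases (mem_letter h).1 hy with rfl | rfl
          · rw [one_mul]
          · rw [flux_adj_mul h hja])
      have e2 := sum_margR (B₂ := letter j h) (B₁ := ideal (adj j h * D)) P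
        (fun _ => (1 : ℝ)) (fun _ _ _ => rfl)
      rw [← sum_on hoff] at e1 e2
      simp only [mul_one] at e2
      rw [e1, e2] at hmain
      exact hmain
  · unfold SortedAt at h1
    push Not at h1
    obtain ⟨j, h, hja, hd⟩ := h1
    have hd' : D ⟨j + 1, h⟩ < D ⟨j, Nat.lt_of_succ_lt h⟩ := by
      refine lt_of_le_of_ne hd (fun he => ?_)
      have := congrArg Fin.val (D.injective he)
      simp at this
    have hup := up_of_right_descent h hd'
    have hI := ideal_mul_letter h hup
    have ih' := ih _ (wt_lt hup) (D * adj j h) rfl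
    intro P hP h0
    rw [hI] at hP h0 ⊢
    have hinc := margL_inc (isDown_ideal _) (isDown_letter h) hP h0
    have hnn : ∀ x ∈ ideal (D * adj j h), 0 ≤
        margL (ideal (D * adj j h)) (letter j h) P x := fun x _ => margL_nonneg h0 x
    have hmain := ih' _ hinc hnn
    have hoff : ∀ z, z ∉ ideal (D * adj j h) →
        margL (ideal (D * adj j h)) (letter j h) P z = 0 := fun z hz => margL_off hz
    rw [flux_mul_adj h hja] at hmain
    have e1 := sum_margL (B₂ := ideal (D * adj j h)) (B₁ := letter j h) P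
      (fun z => (flux a z : ℝ)) (fun y x hx => by
        rcases (mem_letter h).1 hx with rfl | rfl
        · rw [mul_one]
        · rw [flux_mul_adj h hja])
    have e2 := sum_margL (B₂ := ideal (D * adj j h)) (B₁ := letter j h) P
      (fun _ => (1 : ℝ)) (fun _ _ _ => rfl)
    rw [← sum_on hoff] at e1 e2
    simp only [mul_one] at e2
    rw [e1, e2] at hmain
    exact hmain

end VPBruhat
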