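/-
P235-M, helper549.  The band |v x - x| <= k in S_{2k} is the principal Bruhat ideal of the block
swap G_k.
-/
import Vale.Agent.P235.R2.H549.Strip

namespace VPBruhat

open Equiv Finset

theorem mem_band {k : ℕ} {v : Perm (Fin (2 * k))} :
    v ∈ band k ↔ ∀ x : Fin (2 * k), (v x : ℕ) ≤ x + k ∧ (x : ℕ) ≤ v x + k := by
  unfold band; simp

theorem isDown_band (k : ℕ) : IsDown (band k) := by
  intro v v' h hv'
  rw [mem_band] at hv' ⊢
  obtain ⟨i, j, hij, hlt, rfl⟩ := h
  have h1 := hv' i
  have h2 := hv' j
  simp only [Perm.mul_apply, swap_apply_left, swap_apply_right] at h1 h2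
  have a1 : (i : ℕ) < j := hij
  have a2 : (v i : ℕ) < v j := hlt
  intro x
  by_cases hx : x = i
  · subst hx; omega
  by_cases hy : x = j
  · subst hy; omega
  have := hv' x
  rwa [Perm.mul_apply, swap_apply_of_ne_of_ne hx hy] at this

/-- the block swap, as a function -/
def bsFun (k : ℕ) (x : Fin (2 * k)) : Fin (2 * k) :=
  if h : (x : ℕ) < k then ⟨x + k, by omega⟩ else ⟨x - k, by omega⟩

theorem bsFun_lt {k : ℕ} {x : Fin (2 * k)} (h : (x : ℕ) < k) :
    (bsFun k x : ℕ) = x + k := by
  unfold bsFun; rw [dif_pos h]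

theorem bsFun_ge {k : ℕ} {x : Fin (2 * k)} (h : k ≤ (x : ℕ)) :
    (bsFun k x : ℕ) = x - k := by
  unfold bsFun; rw [dif_neg (not_lt.2 h)]

theorem bsFun_bsFun (k : ℕ) (x : Fin (2 * k)) : bsFun k (bsFun k x) = x := by
  ext
  by_cases h : (x : ℕ) < k
  · rw [bsFun_ge (by rw [bsFun_lt h]; omega), bsFun_lt h]; omega
  · have h2 := not_lt.1 h
    have h3 := x.2
    rw [bsFun_lt (by rw [bsFun_ge h2]; omega), bsFun_ge h2]; omega

/-- the block swap -/
def blockSwap (k : ℕ) : Perm (Fin (2 * k)) :=
  Function.Involutive.toPerm (bsFun k) (bsFun_bsFun k)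

theorem blockSwap_lt {k : ℕ} {x : Fin (2 * k)} (h : (x : ℕ) < k) :
    (blockSwap k x : ℕ) = x + k := bsFun_lt h

theorem blockSwap_ge {k : ℕ} {x : Fin (2 * k)} (h : k ≤ (x : ℕ)) :
    (blockSwap k x : ℕ) = x - k := bsFun_ge h

theorem blockSwap_mem (k : ℕ) : blockSwap k ∈ band k := by
  rw [mem_band]
  intro x
  by_cases h : (x : ℕ) < k
  · rw [blockSwap_lt h]; omega
  · rw [blockSwap_ge (not_lt.1 h)]; omega

/-- every element of the band other than the block swap has an up-neighbour in the band -/
theorem exists_up_band {k : ℕ} {v : Perm (Fin (2 * k))} (hv : v ∈ band k)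
    (hne : v ≠ blockSwap k) : ∃ v' ∈ band k, Up v v' := by
  classical
  have hv2 := mem_band.1 hv
  -- least position where they differ
  have hex : ∃ m : ℕ, ∃ x : Fin (2 * k), (x : ℕ) = m ∧ v x ≠ blockSwap k x := by
    by_contra hc
    push Not at hc
    exact hne (Equiv.ext (fun x => hc x x rfl))
  obtain ⟨x, hxm, hx⟩ := Nat.find_spec hex
  have hmin : ∀ y : Fin (2 * k), y < x → v y = blockSwap k y := by
    intro y hy
    by_contra hc
    exact Nat.find_min hex (m := (y : ℕ)) (by rw [← hxm]; exact hy) ⟨y, rfl, hc⟩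
  by_cases hxk : (x : ℕ) < k
  · -- first case
    have hval : (v x : ℕ) < x + k := by
      have h1 := (hv2 x).1
      refine lt_of_le_of_ne h1 (fun he => hx (Fin.ext ?_))
      rw [blockSwap_lt hxk, he]
    have hvk : (v x : ℕ) < k := by
      by_contra hc
      have hy : (v x : ℕ) - k < x := by omega
      have hlt2 : (v x : ℕ) - k < 2 * k := by omega
      have h1 := hmin ⟨(v x : ℕ) - k, hlt2⟩ (Fin.lt_def.2 hy)
      have h2 : (v ⟨(v x : ℕ) - k, hlt2⟩ : ℕ) = v x := by
        rw [h1, blockSwap_lt (by show (v x : ℕ) - k < k; omega)]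
        show (v x : ℕ) - k + k = v x
        omega
      have h3 := v.injective (Fin.ext h2)
      have h4 := congrArg Fin.val h3
      simp only at h4
      omega
    set m := (v x : ℕ) with hm
    -- values in (m, k) together with k + x
    let V : Finset (Fin (2 * k)) :=
      Finset.univ.filter (fun w => (m < (w : ℕ) ∧ (w : ℕ) < k) ∨ (w : ℕ) = x + k)
    have hV : ∃ w ∈ V, ((v⁻¹ w : Fin (2 * k)) : ℕ) ≤ m + k := by
      by_contra hc
      push Not at hc
      have hsub : V.image (fun w => ((v⁻¹ w : Fin (2 * k)) : ℕ)) ⊆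
          Finset.Ico (m + k + 1) (2 * k) := by
        intro p hp
        rw [Finset.mem_image] at hp
        obtain ⟨w, hw, rfl⟩ := hp
        rw [Finset.mem_Ico]
        exact ⟨hc w hw, (v⁻¹ w).2⟩
      have hcard := Finset.card_le_card hsub
      rw [Finset.card_image_of_injective _ (fun p q hpq => v⁻¹.injective (Fin.ext hpq)),
        Nat.card_Ico] at hcard
      -- V has k - m elements
      have hV2 : (Finset.Ico (m + 1) k ∪ {(x : ℕ) + k}).card ≤ V.card := by
        have : (Finset.Ico (m + 1) k ∪ {(x : ℕ) + k}) ⊆ V.image Fin.val := by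
          intro p hp
          rw [Finset.mem_union, Finset.mem_Ico, Finset.mem_singleton] at hp
          rw [Finset.mem_image]
          have hp2 : p < 2 * k := by omega
          refine ⟨⟨p, hp2⟩, ?_, rfl⟩
          rw [Finset.mem_filter]
          refine ⟨Finset.mem_univ _, ?_⟩
          show (m < p ∧ p < k) ∨ p = x + k
          omega
        exact (Finset.card_le_card this).trans Finset.card_image_le
      rw [Finset.card_union_of_disjoint, Nat.card_Ico, Finset.card_singleton] at hV2
      · omega
      · rw [Finset.disjoint_singleton_right, Finset.mem_Ico]; omega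
    obtain ⟨w, hw, hpos⟩ := hV
    rw [Finset.mem_filter] at hw
    set j := v⁻¹ w with hj
    have hvj : v j = w := by rw [hj]; simp
    have hmw : m < (w : ℕ) := by rcases hw.2 with h | h <;> omega
    have hxj : x < j := by
      rcases lt_trichotomy x j with h | h | h
      · exact h
      · exfalso; rw [← hvj, ← h] at hmw; exact lt_irrefl _ hmw
      · exfalso
        have h1 := hmin j h
        have h2 : (v j : ℕ) = j + k := by rw [h1]; exact blockSwap_lt (by
          have : (j : ℕ) < x := h
          omega)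
        have h3 : (j : ℕ) < x := h
        rw [hvj] at h2
        rcases hw.2 with h4 | h4 <;> omega
    refine ⟨v * swap x j, ?_, ⟨x, j, hxj, ?_, rfl⟩⟩
    · rw [mem_band]
      intro y
      by_cases hyx : y = x
      · subst hyx
        rw [Perm.mul_apply, swap_apply_left, hvj]
        rcases hw.2 with h | h <;> omega
      by_cases hyj : y = j
      · subst hyj
        rw [Perm.mul_apply, swap_apply_right]
        have h5 : (x : ℕ) < j := hxj
        omega
      rw [Perm.mul_apply, swap_apply_of_ne_of_ne hyx hyj]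
      exact hv2 y
    · rw [hvj]; exact Fin.lt_def.2 hmw
  · exfalso
    have hxk' : k ≤ (x : ℕ) := not_lt.1 hxk
    have hwlt : (x : ℕ) - k < 2 * k := by omega
    set w : Fin (2 * k) := ⟨(x : ℕ) - k, hwlt⟩ with hw
    set j := v⁻¹ w with hj
    have hvj : v j = w := by rw [hj]; simp
    have hb := (hv2 j).2
    rw [hvj] at hb
    have hjx : (j : ℕ) ≤ x := by
      have : (w : ℕ) = (x : ℕ) - k := rfl
      omega
    rcases lt_or_eq_of_le hjx with h | h
    · have h1 := hmin j h
      rw [hvj] at h1
      have h2 := congrArg Fin.val h1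
      by_cases hjk : (j : ℕ) < k
      · rw [blockSwap_lt hjk] at h2
        have : (w : ℕ) = (x : ℕ) - k := rfl
        omega
      · rw [blockSwap_ge (not_lt.1 hjk)] at h2
        have : (w : ℕ) = (x : ℕ) - k := rfl
        omega
    · have : j = x := Fin.ext h
      rw [this] at hvj
      exact hx (by rw [hvj]; ext; rw [blockSwap_ge hxk'])

/-- the band is the principal ideal of the block swap -/
theorem band_ble {k : ℕ} {v : Perm (Fin (2 * k))} (hv : v ∈ band k) : BLe v (blockSwap k) := by
  classical
  obtain ⟨w, hw, hmax⟩ := Finset.exists_max_image ((band k).filter (fun w => BLe v w)) wt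
    ⟨v, Finset.mem_filter.2 ⟨hv, Relation.ReflTransGen.refl⟩⟩
  rw [Finset.mem_filter] at hw
  by_cases h : w = blockSwap k
  · rw [← h]; exact hw.2
  · exfalso
    obtain ⟨w', hw', hup⟩ := exists_up_band hw.1 h
    have := hmax w' (Finset.mem_filter.2 ⟨hw', ble_trans hw.2 hup.ble⟩)
    exact absurd (wt_lt hup) (not_lt.2 this)

theorem ideal_blockSwap (k : ℕ) : ideal (blockSwap k) = band k := by
  ext v
  rw [mem_ideal]
  exact ⟨fun h => (isDown_band k).ble h (blockSwap_mem k), band_ble⟩

end VPBruhat
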