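/-
P235-M, helper549.  A permutation which is sorted on both sides of the level a, together with its
inverse, is the block swap at level a.
-/
import Vale.Agent.P235.R2.H549.Band

namespace VPBruhat

open Equiv Finset

theorem flux_inv {n : ℕ} {a : ℕ} (v : Perm (Fin n)) :
    flux a v⁻¹ = (Finset.univ.filter (fun x : Fin n => a ≤ (x : ℕ) ∧ (v x : ℕ) < a)).card := by
  unfold flux
  refine Finset.card_bij (fun x _ => v⁻¹ x) ?_ ?_ ?_
  · intro x hx
    rw [Finset.mem_filter] at hx ⊢
    exact ⟨Finset.mem_univ _, hx.2.2, by simpa using hx.2.1⟩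
  · intro x _ y _ h
    exact v⁻¹.injective h
  · intro y hy
    rw [Finset.mem_filter] at hy
    refine ⟨v y, ?_, by simp⟩
    rw [Finset.mem_filter]
    exact ⟨Finset.mem_univ _, hy.2.2, by simpa using hy.2.1⟩

/-- the flux of the inverse is the same -/
theorem flux_inv_eq {n : ℕ} {a : ℕ} (v : Perm (Fin n)) : flux a v⁻¹ = flux a v := by
  classical
  rw [flux_inv]
  unfold flux
  have h1 : (Finset.univ.filter (fun x : Fin n => (x : ℕ) < a)).card =
      (Finset.univ.filter (fun x : Fin n => (v x : ℕ) < a)).card := by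
    symm
    refine Finset.card_bij (fun x _ => v x) ?_ ?_ ?_
    · intro x hx; rw [Finset.mem_filter] at hx ⊢; exact ⟨Finset.mem_univ _, hx.2⟩
    · intro x _ y _ h; exact v.injective h
    · intro y hy
      rw [Finset.mem_filter] at hy
      exact ⟨v⁻¹ y, Finset.mem_filter.2 ⟨Finset.mem_univ _, by simpa using hy.2⟩, by simp⟩
  have h2 : (Finset.univ.filter (fun x : Fin n => (x : ℕ) < a)).card =
      (Finset.univ.filter (fun x : Fin n => (x : ℕ) < a ∧ a ≤ (v x : ℕ))).card +
      (Finset.univ.filter (fun x : Fin n => (x : ℕ) < a ∧ (v x : ℕ) < a)).card := by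
    rw [← Finset.card_union_of_disjoint]
    · congr 1
      ext x
      simp only [Finset.mem_filter, Finset.mem_union, Finset.mem_univ, true_and]
      have := le_or_gt a (v x : ℕ)
      tauto
    · rw [Finset.disjoint_filter]
      intro x _ hx hy
      omega
  have h3 : (Finset.univ.filter (fun x : Fin n => (v x : ℕ) < a)).card =
      (Finset.univ.filter (fun x : Fin n => a ≤ (x : ℕ) ∧ (v x : ℕ) < a)).card +
      (Finset.univ.filter (fun x : Fin n => (x : ℕ) < a ∧ (v x : ℕ) < a)).card := by
    rw [← Finset.card_union_of_disjoint]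
    · congr 1
      ext x
      simp only [Finset.mem_filter, Finset.mem_union, Finset.mem_univ, true_and]
      have := le_or_gt a (x : ℕ)
      tauto
    · rw [Finset.disjoint_filter]
      intro x _ hx hy
      omega
  omega

theorem SortedAt.lt {n a : ℕ} {D : Perm (Fin n)} (h : SortedAt a D) {x y : Fin n} (hxy : x < y)
    (hs : (y : ℕ) < a ∨ a ≤ (x : ℕ)) : D x < D y := by
  have key : ∀ t : ℕ, ∀ y : Fin n, (y : ℕ) = x + t + 1 → ((y : ℕ) < a ∨ a ≤ (x : ℕ)) →
      D x < D y := by
    intro t
    induction t with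
    | zero =>
      intro y hy hs
      have h1 : (x : ℕ) + 1 < n := by have := y.2; omega
      have := h x h1 (by omega)
      have hy' : y = ⟨x + 1, h1⟩ := Fin.ext hy
      rw [hy']
      exact this
    | succ t ih =>
      intro y hy hs
      have h1 : (x : ℕ) + t + 1 + 1 < n := by have := y.2; omega
      have h2 := ih ⟨x + t + 1, by omega⟩ rfl (by
        show (x : ℕ) + t + 1 < a ∨ a ≤ (x : ℕ)
        omega)
      have h3 := h (x + t + 1) h1 (by omega)
      have hy' : y = ⟨x + t + 1 + 1, h1⟩ := Fin.ext hy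
      rw [hy']
      exact h2.trans h3
  have hlt : (x : ℕ) < y := hxy
  exact key ((y : ℕ) - x - 1) y (by omega) hs

theorem card_fin_Ico {n p q : ℕ} (hq : q ≤ n) :
    (Finset.univ.filter (fun x : Fin n => p ≤ (x : ℕ) ∧ (x : ℕ) < q)).card = q - p := by
  classical
  rw [← Nat.card_Ico p q, ← Finset.card_image_of_injective _ Fin.val_injective]
  congr 1
  ext m
  rw [Finset.mem_image, Finset.mem_Ico]
  constructor
  · rintro ⟨x, hx, rfl⟩
    rw [Finset.mem_filter] at hx
    exact hx.2
  · intro hm
    exact ⟨⟨m, by omega⟩, Finset.mem_filter.2 ⟨Finset.mem_univ _, hm⟩, rfl⟩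

/-- positions below `a` carrying values at least `a` are the last `k` ones -/
theorem SortedAt.claimA {n a : ℕ} {D : Perm (Fin n)} (h : SortedAt a D) (han : a ≤ n)
    (x : Fin n) (hx : (x : ℕ) < a) :
    a ≤ (D x : ℕ) ↔ a ≤ (x : ℕ) + flux a D := by
  classical
  constructor
  · intro hD
    have hsub : (Finset.univ.filter (fun y : Fin n => (x : ℕ) ≤ (y : ℕ) ∧ (y : ℕ) < a)) ⊆
        Finset.univ.filter (fun y : Fin n => (y : ℕ) < a ∧ a ≤ (D y : ℕ)) := by
      intro y hy
      rw [Finset.mem_filter] at hy ⊢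
      refine ⟨Finset.mem_univ _, hy.2.2, ?_⟩
      rcases eq_or_lt_of_le hy.2.1 with h1 | h1
      · rw [← Fin.ext h1]; exact hD
      · have : (D x : ℕ) < D y := h.lt (x := x) (y := y) h1 (Or.inl hy.2.2)
        omega
    have := Finset.card_le_card hsub
    rw [card_fin_Ico han] at this
    unfold flux
    omega
  · intro hx2
    by_contra hD
    have hsub : Finset.univ.filter (fun y : Fin n => (y : ℕ) < a ∧ a ≤ (D y : ℕ)) ⊆
        (Finset.univ.filter (fun y : Fin n => (x : ℕ) + 1 ≤ (y : ℕ) ∧ (y : ℕ) < a)) := by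
      intro y hy
      rw [Finset.mem_filter] at hy ⊢
      refine ⟨Finset.mem_univ _, ?_, hy.2.1⟩
      by_contra hc
      have hyx : (y : ℕ) ≤ x := by omega
      rcases eq_or_lt_of_le hyx with h1 | h1
      · have : y = x := Fin.ext h1
        rw [this] at hy
        exact hD hy.2.2
      · have : (D y : ℕ) < D x := h.lt (x := y) (y := x) h1 (Or.inl hx)
        omega
    have := Finset.card_le_card hsub
    rw [card_fin_Ico han] at this
    unfold flux at hx2
    omega

/-- positions at least `a` carrying values below `a` are the first `k` ones -/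
theorem SortedAt.claimB {n a : ℕ} {D : Perm (Fin n)} (h : SortedAt a D) (han : a ≤ n)
    (x : Fin n) (hx : a ≤ (x : ℕ)) :
    (D x : ℕ) < a ↔ (x : ℕ) < a + flux a D := by
  classical
  have hfl := flux_inv (a := a) D
  rw [flux_inv_eq] at hfl
  rw [hfl]
  constructor
  · intro hD
    have hsub : (Finset.univ.filter (fun y : Fin n => a ≤ (y : ℕ) ∧ (y : ℕ) < (x : ℕ) + 1)) ⊆
        Finset.univ.filter (fun y : Fin n => a ≤ (y : ℕ) ∧ (D y : ℕ) < a) := by
      intro y hy
      rw [Finset.mem_filter] at hy ⊢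
      refine ⟨Finset.mem_univ _, hy.2.1, ?_⟩
      have hyx : (y : ℕ) ≤ x := by omega
      rcases eq_or_lt_of_le hyx with h1 | h1
      · rw [Fin.ext h1]; exact hD
      · have : (D y : ℕ) < D x := h.lt (x := y) (y := x) h1 (Or.inr hy.2.1)
        omega
    have := Finset.card_le_card hsub
    rw [card_fin_Ico (show (x : ℕ) + 1 ≤ n from x.2)] at this
    omega
  · intro hx2
    by_contra hD
    have hsub : Finset.univ.filter (fun y : Fin n => a ≤ (y : ℕ) ∧ (D y : ℕ) < a) ⊆
        (Finset.univ.filter (fun y : Fin n => a ≤ (y : ℕ) ∧ (y : ℕ) < (x : ℕ))) := by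
      intro y hy
      rw [Finset.mem_filter] at hy ⊢
      refine ⟨Finset.mem_univ _, hy.2.1, ?_⟩
      by_contra hc
      have hyx : (x : ℕ) ≤ y := by omega
      rcases eq_or_lt_of_le hyx with h1 | h1
      · have : x = y := Fin.ext h1
        rw [← this] at hy
        exact hD hy.2.2
      · have : (D x : ℕ) < D y := h.lt (x := x) (y := y) h1 (Or.inr hx)
        omega
    have := Finset.card_le_card hsub
    rw [card_fin_Ico x.2.le] at this
    omega

/-- a strictly increasing map between intervals of the same length is the shift -/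
theorem shift_eq {n : ℕ} (D : Perm (Fin n)) (p q p' : ℕ) (hq : q ≤ n)
    (hmono : ∀ x y : Fin n, p ≤ (x : ℕ) → x < y → (y : ℕ) < q → D x < D y)
    (hlo : ∀ x : Fin n, p ≤ (x : ℕ) → (x : ℕ) < q → p' ≤ (D x : ℕ))
    (hhi : ∀ x : Fin n, p ≤ (x : ℕ) → (x : ℕ) < q → (D x : ℕ) < p' + (q - p))
    (x : Fin n) (h1 : p ≤ (x : ℕ)) (h2 : (x : ℕ) < q) : (D x : ℕ) = p' + (x - p) := by
  have lower : ∀ t : ℕ, ∀ x : Fin n, (x : ℕ) = p + t → (x : ℕ) < q → p' + t ≤ (D x : ℕ) := by
    intro t
    induction t with
    | zero => intro x hx hxq; simpa using hlo x (by omega) hxq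
    | succ t ih =>
      intro x hx hxq
      have h3 := ih ⟨p + t, by have := x.2; omega⟩ rfl (by show p + t < q; omega)
      have h4 : (D ⟨p + t, by have := x.2; omega⟩ : ℕ) < D x :=
        hmono _ x (by show p ≤ p + t; omega) (Fin.lt_def.2 (by show p + t < x; omega)) hxq
      omega
  have upper : ∀ t : ℕ, ∀ x : Fin n, (x : ℕ) + t + 1 = q → p ≤ (x : ℕ) →
      (D x : ℕ) + t + 1 ≤ p' + (q - p) := by
    intro t
    induction t with
    | zero => intro x hx hxp; have := hhi x hxp (by omega); omega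
    | succ t ih =>
      intro x hx hxp
      have hlt : (x : ℕ) + 1 < n := by omega
      have h3 := ih ⟨x + 1, hlt⟩ (by show (x : ℕ) + 1 + t + 1 = q; omega)
        (by show p ≤ (x : ℕ) + 1; omega)
      have h4 : (D x : ℕ) < D ⟨x + 1, hlt⟩ :=
        hmono x _ hxp (Fin.lt_def.2 (by show (x : ℕ) < x + 1; omega))
          (by show (x : ℕ) + 1 < q; omega)
      omega
  have e1 := lower (x - p) x (by omega) h2
  have e2 := upper (q - x - 1) x (by omega) h1
  omega

/-- the shape of a doubly sorted permutation -/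
theorem shape {n a : ℕ} {D : Perm (Fin n)} (h : SortedAt a D) (h' : SortedAt a D⁻¹)
    (han : a ≤ n) (hka : flux a D ≤ a) (hkn : a + flux a D ≤ n) (x : Fin n) :
    (D x : ℕ) = if (x : ℕ) < a - flux a D then (x : ℕ) else if (x : ℕ) < a then x + flux a D
      else if (x : ℕ) < a + flux a D then x - flux a D else x := by
  have hD : ∀ x, D⁻¹ (D x) = x := fun x => by simp
  have hk : flux a D⁻¹ = flux a D := flux_inv_eq D
  set k := flux a D with hkdef
  -- images of the four blocks
  have A := h.claimA han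
  have B := h.claimB han
  have A' := h'.claimA han
  have B' := h'.claimB han
  rw [hk] at A' B'
  have b1 : ∀ x : Fin n, (x : ℕ) < a - k → (D x : ℕ) < a - k := by
    intro x hx
    have h1 : ¬ a ≤ (D x : ℕ) := fun hc => by
      have := (A x (by omega)).1 hc; omega
    have h2 : ¬ a ≤ (D x : ℕ) + k := fun hc => by
      have := (A' (D x) (by omega)).2 hc
      rw [hD] at this; omega
    omega
  have b2 : ∀ x : Fin n, a - k ≤ (x : ℕ) → (x : ℕ) < a → a ≤ (D x : ℕ) ∧ (D x : ℕ) < a + k := by
    intro x hx hxa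
    have h1 : a ≤ (D x : ℕ) := (A x hxa).2 (by omega)
    refine ⟨h1, (B' (D x) h1).1 ?_⟩
    rw [hD]; exact hxa
  have b3 : ∀ x : Fin n, a ≤ (x : ℕ) → (x : ℕ) < a + k → a - k ≤ (D x : ℕ) ∧ (D x : ℕ) < a := by
    intro x hx hxa
    have h1 : (D x : ℕ) < a := (B x hx).2 hxa
    have h2 := (A' (D x) h1).1 (by rw [hD]; exact hx)
    exact ⟨by omega, h1⟩
  have b4 : ∀ x : Fin n, a + k ≤ (x : ℕ) → a + k ≤ (D x : ℕ) := by
    intro x hx
    have h1 : a ≤ (D x : ℕ) := by
      by_contra hc
      have := (B x (by omega)).1 (by omega)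
      omega
    by_contra hc
    have := (B' (D x) h1).2 (by omega)
    rw [hD] at this
    omega
  split_ifs with c1 c2 c3
  · have := shift_eq D 0 (a - k) 0 (by omega)
      (fun x y _ hxy hy => h.lt hxy (Or.inl (by omega)))
      (fun x _ _ => Nat.zero_le _) (fun x _ hx => by have := b1 x hx; omega) x (Nat.zero_le _) c1
    omega
  · have := shift_eq D (a - k) a a han
      (fun x y _ hxy hy => h.lt hxy (Or.inl hy))
      (fun x hx hx2 => (b2 x hx hx2).1)
      (fun x hx hx2 => by have := (b2 x hx hx2).2; omega) x (by omega) c2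
    omega
  · have := shift_eq D a (a + k) (a - k) hkn
      (fun x y hx hxy hy => h.lt hxy (Or.inr hx))
      (fun x hx hx2 => (b3 x hx hx2).1)
      (fun x hx hx2 => by have := (b3 x hx hx2).2; omega) x (by omega) c3
    omega
  · have := shift_eq D (a + k) n (a + k) le_rfl
      (fun x y hx hxy hy => h.lt hxy (Or.inr (by omega)))
      (fun x hx hx2 => b4 x hx)
      (fun x hx hx2 => by have := (D x).2; omega) x (by omega) x.2
    omega

end VPBruhat
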