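/-
P235-M, helper549.  GammaConst c implies: every principal Bruhat ideal [e, D] of S_n is served at
every level a by every increasing law.
-/
import Vale.Agent.P235.R2.H549.Shape

namespace VPBruhat

open Equiv Finset

/-- the window `[a - k, a + k)` -/
def emb {n : ℕ} (a k : ℕ) (hka : k ≤ a) (hkn : a + k ≤ n) : Fin (2 * k) ↪ Fin n where
  toFun x := ⟨a - k + x, by omega⟩
  inj' x y h := by
    have := congrArg Fin.val h
    simp only at this
    exact Fin.ext (by omega)

theorem emb_val {n a k : ℕ} (hka : k ≤ a) (hkn : a + k ≤ n) (x : Fin (2 * k)) :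
    (emb a k hka hkn x : ℕ) = a - k + x := rfl

theorem mem_range_emb {n a k : ℕ} (hka : k ≤ a) (hkn : a + k ≤ n) (y : Fin n) :
    y ∈ Set.range (emb a k hka hkn) ↔ a - k ≤ (y : ℕ) ∧ (y : ℕ) < a + k := by
  constructor
  · rintro ⟨x, rfl⟩
    rw [emb_val]; omega
  · intro h
    exact ⟨⟨y - (a - k), by omega⟩, Fin.ext (by rw [emb_val]; show a - k + (y - (a - k)) = y; omega)⟩

/-- extension by the identity -/
noncomputable def extP {n a k : ℕ} (hka : k ≤ a) (hkn : a + k ≤ n) (w : Perm (Fin (2 * k))) :
    Perm (Fin n) := w.viaEmbedding (emb a k hka hkn)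

theorem extP_emb {n a k : ℕ} (hka : k ≤ a) (hkn : a + k ≤ n) (w : Perm (Fin (2 * k)))
    (x : Fin (2 * k)) : extP hka hkn w (emb a k hka hkn x) = emb a k hka hkn (w x) :=
  Perm.viaEmbedding_apply _ _ _

theorem extP_off {n a k : ℕ} (hka : k ≤ a) (hkn : a + k ≤ n) (w : Perm (Fin (2 * k)))
    {y : Fin n} (hy : y ∉ Set.range (emb a k hka hkn)) : extP hka hkn w y = y :=
  Perm.viaEmbedding_apply_of_notMem _ _ _ hy

theorem extP_inj {n a k : ℕ} (hka : k ≤ a) (hkn : a + k ≤ n) :
    Function.Injective (extP (n := n) hka hkn) := by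
  intro w w' h
  ext x
  have h1 := extP_emb hka hkn w x
  rw [h, extP_emb] at h1
  rw [(emb a k hka hkn).injective h1]

theorem extP_mul_swap {n a k : ℕ} (hka : k ≤ a) (hkn : a + k ≤ n) (w : Perm (Fin (2 * k)))
    (i j : Fin (2 * k)) : extP hka hkn (w * swap i j) =
      extP hka hkn w * swap (emb a k hka hkn i) (emb a k hka hkn j) := by
  ext y
  by_cases hy : y ∈ Set.range (emb a k hka hkn)
  · obtain ⟨x, rfl⟩ := hy
    rw [extP_emb, Perm.mul_apply, Perm.mul_apply]
    by_cases h1 : x = i
    · subst h1; rw [swap_apply_left, swap_apply_left, extP_emb]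
    by_cases h2 : x = j
    · subst h2; rw [swap_apply_right, swap_apply_right, extP_emb]
    rw [swap_apply_of_ne_of_ne h1 h2, swap_apply_of_ne_of_ne
      (fun h => h1 ((emb a k hka hkn).injective h)) (fun h => h2 ((emb a k hka hkn).injective h)),
      extP_emb]
  · rw [extP_off hka hkn _ hy, Perm.mul_apply, swap_apply_of_ne_of_ne, extP_off hka hkn _ hy]
    · rintro rfl; exact hy ⟨i, rfl⟩
    · rintro rfl; exact hy ⟨j, rfl⟩

theorem extP_up {n a k : ℕ} (hka : k ≤ a) (hkn : a + k ≤ n) {w w' : Perm (Fin (2 * k))}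
    (h : Up w w') : Up (extP (n := n) hka hkn w) (extP hka hkn w') := by
  obtain ⟨i, j, hij, hlt, rfl⟩ := h
  refine ⟨emb a k hka hkn i, emb a k hka hkn j, ?_, ?_, extP_mul_swap hka hkn w i j⟩
  · rw [Fin.lt_def, emb_val, emb_val]; have := Fin.lt_def.1 hij; omega
  · rw [extP_emb, extP_emb, Fin.lt_def, emb_val, emb_val]
    have := Fin.lt_def.1 hlt; omega

theorem extP_ble {n a k : ℕ} (hka : k ≤ a) (hkn : a + k ≤ n) {w w' : Perm (Fin (2 * k))}
    (h : BLe w w') : BLe (extP (n := n) hka hkn w) (extP hka hkn w') := by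
  induction h with
  | refl => exact Relation.ReflTransGen.refl
  | tail _ h ih => exact ih.tail (extP_up hka hkn h)

/-- the extended band is a down-set -/
theorem isDown_image {n a k : ℕ} (hka : k ≤ a) (hkn : a + k ≤ n) :
    IsDown ((band k).image (extP (n := n) hka hkn)) := by
  classical
  intro v v' h hv'
  rw [Finset.mem_image] at hv' ⊢
  obtain ⟨w', hw', rfl⟩ := hv'
  obtain ⟨i, j, hij, hlt, he⟩ := h
  -- values of the extended permutation
  have hv : v = extP hka hkn w' * swap i j := by
    rw [he, mul_assoc, swap_mul_self, mul_one]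
  have hinv : extP hka hkn w' j < extP hka hkn w' i := by
    rw [hv] at hlt
    simpa using hlt
  have hin : ∀ y : Fin n, y ∈ Set.range (emb a k hka hkn) →
      a - k ≤ (extP hka hkn w' y : ℕ) ∧ (extP hka hkn w' y : ℕ) < a + k := by
    rintro y ⟨x, rfl⟩
    rw [extP_emb, emb_val]; omega
  have hi : i ∈ Set.range (emb a k hka hkn) := by
    by_contra hc
    have h1 := extP_off hka hkn w' hc
    rw [mem_range_emb] at hc
    by_cases hj : j ∈ Set.range (emb a k hka hkn)
    · have h2 := hin j hj
      rw [mem_range_emb] at hj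
      rw [h1, Fin.lt_def] at hinv
      have := Fin.lt_def.1 hij
      omega
    · rw [h1, extP_off hka hkn w' hj] at hinv
      exact lt_asymm hij hinv
  have hj : j ∈ Set.range (emb a k hka hkn) := by
    by_contra hc
    have h1 := extP_off hka hkn w' hc
    rw [mem_range_emb] at hc
    have h2 := hin i hi
    rw [mem_range_emb] at hi
    rw [h1, Fin.lt_def] at hinv
    have := Fin.lt_def.1 hij
    omega
  obtain ⟨i', rfl⟩ := hi
  obtain ⟨j', rfl⟩ := hj
  refine ⟨w' * swap i' j', ?_, ?_⟩
  · refine isDown_band k (w' * swap i' j') w' ⟨i', j', ?_, ?_, ?_⟩ hw'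
    · rw [Fin.lt_def, emb_val, emb_val] at hij
      rw [Fin.lt_def]; omega
    · simp only [Perm.mul_apply, swap_apply_left, swap_apply_right]
      rw [extP_emb, extP_emb, Fin.lt_def, emb_val, emb_val] at hinv
      rw [Fin.lt_def]; omega
    · rw [mul_assoc, swap_mul_self, mul_one]
  · rw [extP_mul_swap, ← hv]

theorem flux_extP {n a k : ℕ} (hka : k ≤ a) (hkn : a + k ≤ n) (w : Perm (Fin (2 * k))) :
    flux a (extP (n := n) hka hkn w) = flux k w := by
  classical
  unfold flux
  symm
  refine Finset.card_bij (fun x _ => emb a k hka hkn x) ?_ ?_ ?_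
  · intro x hx
    rw [Finset.mem_filter] at hx ⊢
    refine ⟨Finset.mem_univ _, ?_, ?_⟩
    · rw [emb_val]; omega
    · rw [extP_emb, emb_val]; omega
  · intro x _ y _ h
    exact (emb a k hka hkn).injective h
  · intro y hy
    rw [Finset.mem_filter] at hy
    have hyr : y ∈ Set.range (emb a k hka hkn) := by
      by_contra hc
      rw [extP_off hka hkn w hc] at hy
      omega
    obtain ⟨x, rfl⟩ := hyr
    refine ⟨x, ?_, rfl⟩
    rw [Finset.mem_filter]
    rw [extP_emb, emb_val, emb_val] at hy
    exact ⟨Finset.mem_univ _, by omega, by omega⟩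

theorem flux_le_left {n a : ℕ} (v : Perm (Fin n)) : flux a v ≤ a := by
  classical
  unfold flux
  calc _ ≤ (Finset.univ.filter (fun x : Fin n => 0 ≤ (x : ℕ) ∧ (x : ℕ) < min a n)).card := by
        refine Finset.card_le_card (fun x hx => ?_)
        rw [Finset.mem_filter] at hx ⊢
        exact ⟨Finset.mem_univ _, Nat.zero_le _, lt_min hx.2.1 x.2⟩
    _ = min a n - 0 := card_fin_Ico (min_le_right _ _)
    _ ≤ a := by omega

theorem flux_le_right {n a : ℕ} (v : Perm (Fin n)) (han : a ≤ n) : a + flux a v ≤ n := by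
  classical
  have : flux a v ≤ n - a := by
    unfold flux
    calc _ ≤ (Finset.univ.filter (fun x : Fin n => a ≤ (x : ℕ) ∧ (x : ℕ) < n)).card := by
          refine Finset.card_le_card_of_injOn (fun x => v x) ?_ (fun x _ y _ h => v.injective h)
          intro x hx
          rw [Finset.mem_coe, Finset.mem_filter] at hx ⊢
          exact ⟨Finset.mem_univ _, hx.2.2, (v x).2⟩
      _ = n - a := card_fin_Ico le_rfl
  omega

theorem flux_eq_zero {n a : ℕ} (v : Perm (Fin n)) (han : n < a) : flux a v = 0 := by
  unfold flux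
  rw [Finset.card_eq_zero, Finset.filter_eq_empty_iff]
  intro x _ hx
  have := (v x).2
  omega

/-- base case: doubly sorted `D` -/
theorem serves_sorted {n : ℕ} {c : ℝ} (hc : GammaConst c) {a : ℕ} {D : Perm (Fin n)}
    (h : SortedAt a D) (h' : SortedAt a D⁻¹) : Serves c a D := by
  classical
  intro P hP h0
  by_cases hk0 : flux a D = 0
  · rw [hk0]
    simp only [Nat.cast_zero, mul_zero, zero_mul]
    exact Finset.sum_nonneg (fun z hz => mul_nonneg (h0 z hz) (Nat.cast_nonneg _))
  have han : a ≤ n := by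
    by_contra hcon
    exact hk0 (flux_eq_zero D (by omega))
  set k := flux a D with hk
  have hka : k ≤ a := flux_le_left D
  have hkn : a + k ≤ n := flux_le_right D han
  have hDext : D = extP hka hkn (blockSwap k) := by
    ext x
    rw [shape h h' han hka hkn x]
    by_cases hx : x ∈ Set.range (emb a k hka hkn)
    · obtain ⟨y, rfl⟩ := hx
      rw [extP_emb, emb_val, emb_val]
      by_cases hy : (y : ℕ) < k
      · rw [blockSwap_lt hy]
        split_ifs <;> omega
      · have hy2 := not_lt.1 hy
        have hy3 := y.2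
        rw [blockSwap_ge hy2]
        split_ifs <;> omega
    · rw [extP_off hka hkn _ hx]
      rw [mem_range_emb] at hx
      split_ifs <;> omega
  have hideal : ideal D = (band k).image (extP (n := n) hka hkn) := by
    ext v
    rw [mem_ideal]
    constructor
    · intro hv
      refine (isDown_image hka hkn).ble hv ?_
      rw [Finset.mem_image]
      exact ⟨blockSwap k, blockSwap_mem k, hDext.symm⟩
    · intro hv
      rw [Finset.mem_image] at hv
      obtain ⟨w, hw, rfl⟩ := hv
      rw [hDext]
      exact extP_ble hka hkn (band_ble hw)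
  have hinj : ∀ x ∈ band k, ∀ y ∈ band k, extP (n := n) hka hkn x = extP hka hkn y → x = y :=
    fun x _ y _ hxy => extP_inj hka hkn hxy
  have hmem : ∀ w ∈ band k, extP (n := n) hka hkn w ∈ ideal D := fun w hw => by
    rw [hideal]; exact Finset.mem_image_of_mem _ hw
  rw [hideal, Finset.sum_image hinj, Finset.sum_image hinj]
  have := hc.inc k (P := fun w => P (extP hka hkn w)) (fun w hw => h0 _ (hmem w hw))
    (fun w w' hw hw' hup => hP _ _ (hmem w hw) (hmem w' hw') (extP_up hka hkn hup))
  simp only [flux_extP]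
  exact this

/-- **(S) implies that every principal Bruhat ideal is served by every increasing law.** -/
theorem serves_all {n : ℕ} {c : ℝ} (hc : GammaConst c) (a : ℕ) (D : Perm (Fin n)) :
    Serves c a D :=
  serves_of_sorted (fun D h h' => serves_sorted hc h h') D

end VPBruhat
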