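/-
P235-M, helper549.  Letter trees (leaves {1} or {1, s_j}): the allowed set of every window is a
principal Bruhat ideal, the flux is increasing, and every node is served (NodeServed).
-/
import Vale.Agent.P235.R2.H549.Serve
import Vale.Agent.P235.R2.H549.Tree

namespace VPBruhat

open Equiv Finset
open scoped Pointwise

/-- the flux increases along the Bruhat order -/
theorem flux_up {n : ℕ} {v v' : Perm (Fin n)} (h : Up v v') (a : ℕ) : flux a v ≤ flux a v' := by
  classical
  obtain ⟨i, k, hik, hlt, rfl⟩ := h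
  unfold flux
  rw [Finset.card_filter, Finset.card_filter]
  have hne : i ≠ k := hik.ne
  have hk : k ∈ (Finset.univ.erase i : Finset (Fin n)) :=
    Finset.mem_erase.2 ⟨hne.symm, Finset.mem_univ _⟩
  rw [← Finset.add_sum_erase _ _ (Finset.mem_univ i),
    ← Finset.add_sum_erase _ _ (Finset.mem_univ i), ← Finset.add_sum_erase _ _ hk,
    ← Finset.add_sum_erase _ _ hk]
  have e : ∑ x ∈ (Finset.univ.erase i).erase k,
        (if (x : ℕ) < a ∧ a ≤ ((v * swap i k) x : ℕ) then 1 else 0) =
      ∑ x ∈ (Finset.univ.erase i).erase k, (if (x : ℕ) < a ∧ a ≤ (v x : ℕ) then 1 else 0) := by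
    refine Finset.sum_congr rfl (fun x hx => ?_)
    rw [Finset.mem_erase, Finset.mem_erase] at hx
    rw [Perm.mul_apply, swap_apply_of_ne_of_ne hx.2.1 hx.1]
  rw [e]
  simp only [Perm.mul_apply, swap_apply_left, swap_apply_right]
  have h1 : (i : ℕ) < k := hik
  have h2 : (v i : ℕ) < v k := hlt
  split_ifs <;> omega

theorem flux_ble {n : ℕ} {v v' : Perm (Fin n)} (h : BLe v v') (a : ℕ) :
    flux a v ≤ flux a v' := by
  induction h with
  | refl => exact le_rfl
  | tail _ h ih => exact ih.trans (flux_up h a)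

theorem not_up_one {α : Type*} [LinearOrder α] (v : Perm α) : ¬ Up v 1 := by
  rintro ⟨i, k, hik, hlt, he⟩
  have hx : v = swap i k := by
    have h2 : v * swap i k * swap i k = 1 * swap i k := by rw [← he]
    rw [mul_assoc, swap_mul_self, mul_one, one_mul] at h2
    exact h2
  rw [hx] at hlt
  simp only [swap_apply_left, swap_apply_right] at hlt
  exact lt_asymm hik hlt

theorem ideal_one {α : Type*} [LinearOrder α] [Fintype α] : ideal (1 : Perm α) = {1} := by
  ext v
  rw [mem_ideal, Finset.mem_singleton]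
  constructor
  · intro h
    rcases Relation.ReflTransGen.cases_tail h with h | ⟨w, _, hw⟩
    · exact h.symm
    · exact absurd hw (not_up_one w)
  · rintro rfl; exact Relation.ReflTransGen.refl

theorem isDown_one {α : Type*} [LinearOrder α] [Fintype α] :
    IsDown ({1} : Finset (Perm α)) := by
  rw [← ideal_one]; exact isDown_ideal _

/-- a principal ideal times `{1, s_j}` is a principal ideal -/
theorem ideal_mul_letter_principal {n j : ℕ} (h : j + 1 < n) (u : Perm (Fin n)) :
    ∃ u', ideal u * letter j h = ideal u' := by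
  have hlt : (⟨j, Nat.lt_of_succ_lt h⟩ : Fin n) < ⟨j + 1, h⟩ :=
    Fin.lt_def.2 (Nat.lt_succ_self j)
  rcases up_swap_or u hlt with h1 | h1
  · change Up u (u * adj j h) at h1
    refine ⟨u * adj j h, ?_⟩
    have h2 : Up (u * adj j h * adj j h) (u * adj j h) := by
      rw [mul_assoc, adj_mul_self, mul_one]; exact h1
    have h3 := ideal_mul_letter h h2
    rw [mul_assoc u, adj_mul_self, mul_one] at h3
    exact h3.symm
  · change Up (u * adj j h) u at h1
    refine ⟨u, ?_⟩
    ext v
    rw [Finset.mem_mul, mem_ideal]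
    constructor
    · rintro ⟨y, hy, x, hx, rfl⟩
      rw [mem_ideal] at hy
      rcases (mem_letter h).1 hx with rfl | rfl
      · rw [mul_one]; exact hy
      · rcases lift_up h hy with h2 | h2
        · exact h2
        · exact ble_trans h2 h1.ble
    · intro hv
      exact ⟨v, mem_ideal.2 hv, 1, (mem_letter h).2 (Or.inl rfl), mul_one _⟩

namespace BT

/-- letter trees: every leaf is `{1}` or `{1, s_j}` -/
def Letters {n : ℕ} : BT (Fin n) → Prop
  | leaf B => B = {1} ∨ ∃ (j : ℕ) (h : j + 1 < n), B = letter j h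
  | node l r => l.Letters ∧ r.Letters

theorem Letters.ok {n : ℕ} : {t : BT (Fin n)} → t.Letters → t.Ok
  | leaf B, h => by
      rcases h with rfl | ⟨j, hj, rfl⟩
      · exact ⟨isDown_one, ⟨1, Finset.mem_singleton_self _⟩⟩
      · exact ⟨isDown_letter hj, ⟨1, (mem_letter hj).2 (Or.inl rfl)⟩⟩
  | node _ _, h => ⟨h.1.ok, h.2.ok⟩

theorem ideal_mul_set {n : ℕ} : (t : BT (Fin n)) → t.Letters → (u : Perm (Fin n)) →
    ∃ u', ideal u * t.set = ideal u'
  | leaf B, h, u => by
      rcases h with rfl | ⟨j, hj, rfl⟩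
      · exact ⟨u, by
          show ideal u * {1} = ideal u
          rw [show ({1} : Finset (Perm (Fin n))) = 1 from rfl, mul_one]⟩
      · exact ideal_mul_letter_principal hj u
  | node l r, h, u => by
      obtain ⟨u1, h1⟩ := ideal_mul_set r h.2 u
      obtain ⟨u2, h2⟩ := ideal_mul_set l h.1 u1
      refine ⟨u2, ?_⟩
      show ideal u * (r.set * l.set) = _
      rw [← mul_assoc, h1, h2]

/-- the allowed set of a letter tree is a principal Bruhat ideal (Demazure product) -/
theorem set_principal {n : ℕ} {t : BT (Fin n)} (h : t.Letters) :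
    ∃ D, t.set = ideal D := by
  obtain ⟨D, hD⟩ := ideal_mul_set t h 1
  refine ⟨D, ?_⟩
  rw [← hD, ideal_one, show ({1} : Finset (Perm (Fin n))) = 1 from rfl, one_mul]

/-- the same for every window of the tree -/
theorem Node.set_principal {n : ℕ} : {t : BT (Fin n)} → t.Letters → (w : Node t) →
    ∃ D, w.set = ideal D
  | _, h, .here _ => BT.set_principal h
  | BT.node _ _, h, .left _ w => Node.set_principal h.1 w
  | BT.node _ _, h, .right _ w => Node.set_principal h.2 w

end BT

/-- **NodeServed** (form of helper882): every increasing law on the allowed set of a letter tree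
serves all levels. -/
def NodeServed (c : ℝ) : Prop :=
  ∀ (n : ℕ) (t : BT (Fin n)), t.Letters → ∀ P : Perm (Fin n) → ℝ, (∀ z ∈ t.set, 0 ≤ P z) →
    IncOn t.set P → ∀ (a : ℕ) (z : Perm (Fin n)), z ∈ t.set →
      c * flux a z * ∑ v ∈ t.set, P v ≤ ∑ v ∈ t.set, P v * flux a v

theorem nodeServed {c : ℝ} (hc : GammaConst c) : NodeServed c := by
  intro n t ht P h0 hP a z hz
  obtain ⟨D, hD⟩ := BT.set_principal ht
  rw [hD] at h0 hP hz ⊢
  have h1 := serves_all hc a D P hP h0
  have h2 : (flux a z : ℝ) ≤ flux a D := by exact_mod_cast flux_ble (mem_ideal.1 hz) a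
  have h3 : 0 ≤ ∑ v ∈ ideal D, P v := Finset.sum_nonneg h0
  refine le_trans ?_ h1
  exact mul_le_mul_of_nonneg_right (mul_le_mul_of_nonneg_left h2 hc.1.le) h3

/-- **every window of every letter tree is served by the uniform bridging law**: root law
increasing, then for every node `w`, every level `a` and every `z` allowed at `w`,
`c * flux a z * (total mass) ≤ expectation of flux a (product over w)`. -/
theorem BT.Node.served {c : ℝ} (hc : GammaConst c) {n : ℕ} {t : BT (Fin n)} (ht : t.Letters)
    {P : Perm (Fin n) → ℝ} (h0 : ∀ z ∈ t.set, 0 ≤ P z) (hP : IncOn t.set P) (w : BT.Node t)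
    (a : ℕ) {z : Perm (Fin n)} (hz : z ∈ w.set) :
    c * flux a z * ∑ v ∈ t.set, P v ≤ ∑ c', t.law P c' * flux a (w.val c') := by
  classical
  obtain ⟨hnn, hoff, hinc⟩ := BT.node_law ht.ok h0 hP w
  obtain ⟨D, hD⟩ := BT.Node.set_principal ht w
  rw [hD] at hz hoff hinc
  have h1 := serves_all hc a D _ hinc (fun z _ => hnn z)
  have h2 : (flux a z : ℝ) ≤ flux a D := by exact_mod_cast flux_ble (mem_ideal.1 hz) a
  have e1 : ∑ v ∈ ideal D, w.law P v = ∑ v ∈ t.set, P v := by
    rw [← BT.node_mass w P]
    have := sum_on hoff (fun _ => (1 : ℝ))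
    simpa using this
  have e2 : ∑ v ∈ ideal D, w.law P v * (flux a v : ℝ) = ∑ c', t.law P c' * flux a (w.val c') := by
    rw [sum_on hoff (fun v => (flux a v : ℝ))]
    unfold BT.Node.law
    simp only [Finset.sum_mul]
    rw [Finset.sum_comm]
    refine Finset.sum_congr rfl (fun c' _ => ?_)
    rw [Finset.sum_eq_single (w.val c')]
    · simp
    · intro b _ hb
      rw [if_neg (Ne.symm hb), zero_mul]
    · simp
  rw [e1, e2] at h1
  refine le_trans ?_ h1
  exact mul_le_mul_of_nonneg_right (mul_le_mul_of_nonneg_left h2 hc.1.le)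
    (Finset.sum_nonneg h0)

end VPBruhat
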