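import Vale.Agent.P235.R2.H549.KSpec
import Vale.Agent.P235.R2.H549.Lanes

/-!
P235 (helper549).  Row (Lk): `s` lanes of one nonexpansive function in a graph without a `K_r`
minor embed into `L₁` with distortion `O((r + 2)³ √log s)`, from maps at one variable scale.
-/

set_option autoImplicit false

namespace Vale.Agent.P235.Kr.H549

open Vale.Agent.P235 Vale.Agent.P235.Kpr Vale.Agent.P235.Kpr.H549 Vale.Agent.P235.Kr

theorem rowLanesK (hM : RowVarK) : RowLanesK := by
  classical
  refine ⟨60000, by norm_num, ?_⟩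
  intro r V _ G ℓ hc hP hℓ u hu s L0 hL0 hX
  obtain ⟨A, hAr⟩ : ∃ A : ℝ, A = ((r : ℝ) + 2) ^ 3 := ⟨_, rfl⟩
  have hA1 : 8 ≤ A := by
    rw [hAr]
    have h := pow_le_pow_left₀ (by norm_num) (show (2 : ℝ) ≤ (r : ℝ) + 2 by
      have := Nat.cast_nonneg (α := ℝ) r
      linarith) 3
    norm_num at h
    exact h
  have hd := pathDist_isMet hc hℓ
  -- nonempty lanes
  obtain ⟨L, hLe, hLn, hL⟩ : ∃ L : Fin s → Set V, (⋃ i, L i) = (⋃ i, L0 i) ∧
      (∀ i, (L i).Nonempty) ∧ ∀ i, ∀ a ∈ L i, ∀ b ∈ L i, pathDist G ℓ a b ≤ |u a - u b| := by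
    obtain ⟨a, ha⟩ := hX
    obtain ⟨i0, hi0⟩ := Set.mem_iUnion.mp ha
    refine ⟨fun i => if (L0 i).Nonempty then L0 i else L0 i0, ?_, ?_, ?_⟩
    · apply Set.Subset.antisymm
      · refine Set.iUnion_subset fun i => ?_
        show (if (L0 i).Nonempty then L0 i else L0 i0) ⊆ _
        split_ifs
        · exact Set.subset_iUnion L0 i
        · exact Set.subset_iUnion L0 i0
      · refine Set.iUnion_subset fun i v hv => Set.mem_iUnion.mpr ⟨i, ?_⟩
        have h : (L0 i).Nonempty := ⟨v, hv⟩
        show v ∈ (if (L0 i).Nonempty then L0 i else L0 i0)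
        rw [if_pos h]
        exact hv
    · intro i
      show (if (L0 i).Nonempty then L0 i else L0 i0).Nonempty
      split_ifs with h
      · exact h
      · exact ⟨a, hi0⟩
    · intro i
      show ∀ a ∈ (if (L0 i).Nonempty then L0 i else L0 i0), ∀ b ∈ (if (L0 i).Nonempty then L0 i
        else L0 i0), _
      split_ifs
      · exact hL0 i
      · exact hL0 i0
  rw [← hLe] at hX ⊢
  have hs0 : 0 < s := by
    obtain ⟨a, ha⟩ := hX
    obtain ⟨i, -⟩ := Set.mem_iUnion.mp ha
    exact i.pos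
  -- distances to the lanes
  have hnear : ∀ i v, ∃ a ∈ L i, ∀ b ∈ L i, pathDist G ℓ v a ≤ pathDist G ℓ v b := fun i v =>
    Set.exists_min_image (L i) (fun a => pathDist G ℓ v a) (Set.toFinite _) (hLn i)
  choose nr hnr1 hnr2 using hnear
  obtain ⟨e, he⟩ : ∃ e : Fin s → V → ℝ, ∀ i v, e i v = pathDist G ℓ v (nr i v) :=
    ⟨_, fun _ _ => rfl⟩
  have he0 : ∀ i v, 0 ≤ e i v := fun i v => by rw [he]; exact hd.nonneg _ _
  have hel : ∀ i x y, e i x ≤ e i y + pathDist G ℓ x y := by
    intro i x y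
    rw [he, he]
    have h1 := hnr2 i x (nr i y) (hnr1 i y)
    have h2 := hd.tri x y (nr i y)
    linarith
  -- the scales
  obtain ⟨q, hq⟩ : ∃ q : ℕ → ℕ, ∀ j, q j = min (2 ^ j) s := ⟨_, fun _ => rfl⟩
  have hqs : ∀ j, q j ≤ s := fun j => by rw [hq]; exact min_le_right _ _
  have hMj := fun j => hM r V G ℓ hc hP hℓ (tau e (q j)) (fun v => tau_nonneg v) (by
    intro x y hxy
    have h1 := tau_lip he0 (hqs j) (hd.nonneg x y) (fun i => hel i x y)
    have h2 := tau_lip he0 (hqs j) (hd.nonneg y x) (fun i => hel i y x)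
    have h3 : pathDist G ℓ x y ≤ ℓ s(x, y) := pathDist_adj hℓ hxy
    rw [hd.symm y x] at h2
    rw [abs_le]
    constructor <;> linarith)
  choose N hN1 hN2 hN3 using hMj
  have hNI : IsSq (fun x y => ∑ j ∈ Finset.range (Nat.log 2 s + 1), N j x y) :=
    IsSq.sum _ _ fun j _ => hN1 j
  have hNe : ∀ x y, G.Adj x y → ∑ j ∈ Finset.range (Nat.log 2 s + 1), N j x y ≤
      12 * ((Nat.log 2 s : ℝ) + 1) * ℓ s(x, y) ^ 2 := by
    intro x y hxy
    calc ∑ j ∈ Finset.range (Nat.log 2 s + 1), N j x y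
        ≤ ∑ _j ∈ Finset.range (Nat.log 2 s + 1), 12 * ℓ s(x, y) ^ 2 :=
          Finset.sum_le_sum fun j _ => hN2 j x y hxy
      _ = _ := by
          rw [Finset.sum_const, Finset.card_range, nsmul_eq_mul]
          push_cast
          ring
  have hlg0 : (0 : ℝ) ≤ Nat.log 2 s := Nat.cast_nonneg _
  have hNd := SqR.sq_walk hNI hc hℓ (k := 12 * ((Nat.log 2 s : ℝ) + 1)) (by positivity) hNe
  obtain ⟨F, hFI, hF⟩ := hNI.toL1
  obtain ⟨hl1, hl2⟩ := log_ge s hs0
  obtain ⟨Λ, hΛ⟩ : ∃ Λ, Λ = √(Real.log ((s : ℝ) + 2)) := ⟨_, rfl⟩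
  have hΛ0 : 0 ≤ Λ := by rw [hΛ]; exact Real.sqrt_nonneg _
  have hΛ2 : Λ ^ 2 = Real.log ((s : ℝ) + 2) := by
    rw [hΛ, Real.sq_sqrt (by linarith)]
  have hΛ3 : 2 / 3 ≤ Λ := by
    by_contra h
    push Not at h
    nlinarith
  have hsq : √(12 * ((Nat.log 2 s : ℝ) + 1)) ≤ 7 * Λ := by
    rw [Real.sqrt_le_left (by positivity)]
    nlinarith
  have hRI : IsL1 (fun x y : ↥(⋃ i, L i) => 2 * |u x - u y| + 8000 * A * F x y) :=
    ((isL1_line fun x : ↥(⋃ i, L i) => u x).smul (by norm_num)).add
      ((hFI.comap fun x : ↥(⋃ i, L i) => (x : V)).smul (by linarith))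
  rw [← hΛ, ← hAr]
  refine hRI.embeds (fun x y => ?_) fun x y => ?_
  · -- lower bound
    obtain ⟨x, hx⟩ := x
    obtain ⟨y, hy⟩ := y
    show pathDist G ℓ x y ≤ 2 * |u x - u y| + 8000 * A * F x y
    have hF0 : 0 ≤ 8000 * A * F x y := mul_nonneg (by linarith) (hFI.nonneg x y)
    obtain ⟨D, hD⟩ : ∃ D, D = pathDist G ℓ x y := ⟨_, rfl⟩
    rw [← hD]
    have hD0 : 0 ≤ D := hD ▸ hd.nonneg x y
    by_cases hcase : ∃ i, e i x ≤ D / 8 ∧ e i y ≤ D / 8
    · obtain ⟨i, h1, h2⟩ := hcase
      rw [he] at h1 h2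
      have h3 := hL i _ (hnr1 i x) _ (hnr1 i y)
      have h4 := hu x (nr i x)
      have h5 := hu y (nr i y)
      have h6 := hd.tri x (nr i x) y
      have h7 := hd.tri (nr i x) (nr i y) y
      rw [hd.symm (nr i y) y] at h7
      have h8 : |u (nr i x) - u (nr i y)| ≤ |u x - u (nr i x)| + |u x - u y| +
          |u y - u (nr i y)| := by
        have e1 : u (nr i x) - u (nr i y) = -(u x - u (nr i x)) + (u x - u y) +
          (u y - u (nr i y)) := by ring
        rw [e1]
        refine (abs_add_le _ _).trans ?_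
        have := abs_add_le (-(u x - u (nr i x))) (u x - u y)
        rw [abs_neg] at this
        linarith
      linarith
    · push Not at hcase
      rcases hD0.lt_or_eq with hDp | hDz
      swap
      · have := abs_nonneg (u x - u y)
        linarith
      -- the lanes near `x` and near `y`
      have key : ∀ x y, pathDist G ℓ x y = D → x ∈ ⋃ i, L i → y ∈ ⋃ i, L i →
          (∀ i, e i x ≤ D / 8 → D / 8 < e i y) →
          {i | e i x ≤ D / 8}.ncard ≤ {i | e i y ≤ D / 8}.ncard →
          D ^ 2 ≤ 64 * (500 * A) ^ 2 * ∑ j ∈ Finset.range (Nat.log 2 s + 1), N j x y := by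
        intro x y hxy hx hy hdis hcard
        have hA : 0 < {i | e i x ≤ D / 8}.ncard := by
          obtain ⟨i, hi⟩ := Set.mem_iUnion.mp hx
          rw [Set.ncard_pos]
          refine ⟨i, ?_⟩
          show e i x ≤ D / 8
          have := hnr2 i x x hi
          rw [hd.self] at this
          rw [he]
          linarith
        have hAB : {i | e i x ≤ D / 8}.ncard + {i | e i y ≤ D / 8}.ncard =
            ({i | e i x ≤ D / 8} ∪ {i | e i y ≤ D / 8}).ncard := by
          rw [Set.ncard_union_eq]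
          rw [Set.disjoint_left]
          intro i h1 h2
          exact absurd (hdis i h1) (not_lt.mpr h2)
        have hle : ({i | e i x ≤ D / 8} ∪ {i | e i y ≤ D / 8}).ncard ≤
            {i | e i x ≤ 2 * D}.ncard := by
          refine Set.ncard_le_ncard (fun i hi => ?_) (Set.toFinite _)
          show e i x ≤ 2 * D
          rcases hi with h | h
          · have h' : e i x ≤ D / 8 := h
            linarith
          · have h' : e i y ≤ D / 8 := h
            have := hel i x y
            rw [hxy] at this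
            linarith
        have hle2 : ({i | e i x ≤ D / 8} ∪ {i | e i y ≤ D / 8}).ncard ≤ s := by
          have := Set.ncard_le_ncard (Set.subset_univ
            ({i | e i x ≤ D / 8} ∪ {i | e i y ≤ D / 8})) (Set.toFinite _)
          rw [Set.ncard_univ, Nat.card_eq_fintype_card, Fintype.card_fin] at this
          exact this
        obtain ⟨a, ha⟩ : ∃ a, a = {i | e i x ≤ D / 8}.ncard := ⟨_, rfl⟩
        rw [← ha] at hA hAB hcard
        -- a power of two in `(a, 2 a]`
        obtain ⟨j, hj1, hj2⟩ : ∃ j, a < 2 ^ j ∧ 2 ^ j ≤ 2 * a :=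
          ⟨Nat.log 2 a + 1, Nat.lt_pow_succ_log_self (by norm_num) a, by
            rw [pow_succ, mul_comm]
            exact Nat.mul_le_mul_left 2 (Nat.pow_log_le_self 2 (by omega))⟩
        have hj3 : 2 ^ j ≤ s := by omega
        have hqj : q j = 2 ^ j := by rw [hq]; exact min_eq_left hj3
        have hjr : j ∈ Finset.range (Nat.log 2 s + 1) := by
          rw [Finset.mem_range, Nat.lt_succ_iff]
          exact Nat.le_log_of_pow_le (by norm_num) hj3
        have t1 : D / 8 ≤ tau e (q j) x := le_tau he0 (hqs j) (by rw [← ha, hqj]; exact hj1)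
        have t2 : tau e (q j) x ≤ 2 * pathDist G ℓ x y := by
          rw [hxy]
          exact tau_le (by linarith) (by rw [hqj]; omega)
        have t3 := hN3 j x y (by linarith) t2
        rw [← hAr] at t3
        have t4 : N j x y ≤ ∑ j ∈ Finset.range (Nat.log 2 s + 1), N j x y :=
          Finset.single_le_sum (f := fun j => N j x y) (fun j _ => (hN1 j).nonneg x y) hjr
        have t5 : (D / 8) ^ 2 ≤ tau e (q j) x ^ 2 :=
          pow_le_pow_left₀ (by linarith) t1 2
        have t6 : (D / 8) ^ 2 = D ^ 2 / 64 := by ring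
        rw [t6] at t5
        have t7 : (500 * A) ^ 2 * N j x y ≤
            (500 * A) ^ 2 * ∑ j ∈ Finset.range (Nat.log 2 s + 1), N j x y :=
          mul_le_mul_of_nonneg_left t4 (sq_nonneg _)
        linarith
      have hfin : D ^ 2 ≤ 64 * (500 * A) ^ 2 * ∑ j ∈ Finset.range (Nat.log 2 s + 1), N j x y := by
        rcases le_total {i | e i x ≤ D / 8}.ncard {i | e i y ≤ D / 8}.ncard with h | h
        · exact key x y hD.symm hx hy hcase h
        · have hdis : ∀ i, e i y ≤ D / 8 → D / 8 < e i x := by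
            intro i hi
            by_contra hn
            push Not at hn
            exact absurd (hcase i hn) (not_lt.mpr hi)
          have := key y x (by rw [hd.symm, hD]) hy hx hdis h
          have e1 : ∑ j ∈ Finset.range (Nat.log 2 s + 1), N j y x =
              ∑ j ∈ Finset.range (Nat.log 2 s + 1), N j x y :=
            Finset.sum_congr rfl fun j _ => (hN1 j).symm y x
          rw [e1] at this
          exact this
      have h1 : D ≤ 4000 * A * √(∑ j ∈ Finset.range (Nat.log 2 s + 1), N j x y) := by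
        have h2 := Real.sqrt_le_sqrt hfin
        rw [Real.sqrt_sq hD0, Real.sqrt_mul (by positivity)] at h2
        have h3 : √((64 : ℝ) * (500 * A) ^ 2) = 4000 * A := by
          rw [show ((64 : ℝ) * (500 * A) ^ 2) = (4000 * A) ^ 2 by ring,
            Real.sqrt_sq (by linarith)]
        rw [h3] at h2
        exact h2
      have h2 := mul_le_mul_of_nonneg_left (hF x y).2 (show 0 ≤ 4000 * A by linarith)
      have := abs_nonneg (u x - u y)
      linarith
  · -- upper bound
    obtain ⟨x, hx⟩ := x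
    obtain ⟨y, hy⟩ := y
    show 2 * |u x - u y| + 8000 * A * F x y ≤ 60000 * A * Λ * pathDist G ℓ x y
    have h1 := hu x y
    have h3 := mul_le_mul_of_nonneg_right hsq (hd.nonneg x y)
    have h2 : 8000 * A * F x y ≤ 8000 * A * (7 * Λ * pathDist G ℓ x y) :=
      mul_le_mul_of_nonneg_left ((hF x y).1.trans ((hNd x y).trans h3)) (by linarith)
    have h4 := mul_le_mul_of_nonneg_right hΛ3 (hd.nonneg x y)
    have h5 := hd.nonneg x y
    have h6 : 8 * (Λ * pathDist G ℓ x y) ≤ A * (Λ * pathDist G ℓ x y) :=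
      mul_le_mul_of_nonneg_right hA1 (mul_nonneg hΛ0 h5)
    linarith

end Vale.Agent.P235.Kr.H549
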