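import Vale.Agent.P235.R2.H718.DescSpec

/-!
P235 (helper549).  Row (M): one map at a variable scale, from padded random partitions.
-/

set_option autoImplicit false

namespace Vale.Agent.P235.Kpr.H549

open Vale.Agent.P235 Vale.Agent.P235.Kpr

/-- a tent -/
noncomputable def tent (s t : ℝ) : ℝ := max 0 (min (t - s / 2) (4 * s - t))

theorem tent_nonneg (s t : ℝ) : 0 ≤ tent s t := le_max_left _ _

theorem tent_lip (s a b : ℝ) : tent s a ≤ tent s b + |a - b| := by
  have h1 := le_abs_self (a - b)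
  have h2 := neg_abs_le (a - b)
  have h3 := abs_nonneg (a - b)
  have h4 : min (b - s / 2) (4 * s - b) ≤ tent s b := le_max_right _ _
  have h5 := tent_nonneg s b
  generalize tent s b = T at h4 h5 ⊢
  unfold tent
  apply max_le
  · linarith
  · have a1 := min_le_left (a - s / 2) (4 * s - a)
    have a2 := min_le_right (a - s / 2) (4 * s - a)
    rcases min_choice (b - s / 2) (4 * s - b) with h | h <;> rw [h] at h4 <;> linarith

theorem tent_ge {s t : ℝ} (h1 : s ≤ t) (h2 : t ≤ 2 * s) : s / 2 ≤ tent s t := by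
  refine le_trans ?_ (le_max_right _ _)
  apply le_min <;> linarith

theorem tent_pos {s t : ℝ} (h : tent s t ≠ 0) : s / 2 < t ∧ t < 4 * s := by
  unfold tent at h
  by_contra hn
  apply h
  apply max_eq_left
  by_cases h1 : s / 2 < t
  · have h2 : ¬ t < 4 * s := fun h2 => hn ⟨h1, h2⟩
    exact (min_le_right _ _).trans (by linarith)
  · exact (min_le_left _ _).trans (by linarith)

/-- the scales at which the tent does not vanish -/
theorem mem_scales {m : ℤ} {t : ℝ} (h : tent ((2 : ℝ) ^ m) t ≠ 0) :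
    m ∈ Finset.Icc (Int.log 2 t - 1) (Int.log 2 t + 1) := by
  obtain ⟨h1, h2⟩ := tent_pos h
  have hs : (0 : ℝ) < (2 : ℝ) ^ m := by positivity
  have ht : 0 < t := by linarith
  have h3 : ((2 : ℕ) : ℝ) ^ Int.log 2 t ≤ t := Int.zpow_log_le_self (by norm_num) ht
  have h4 : t < ((2 : ℕ) : ℝ) ^ (Int.log 2 t + 1) := Int.lt_zpow_succ_log_self (by norm_num) t
  push_cast at h3 h4
  have h5 : (2 : ℝ) ^ m < (2 : ℝ) ^ (Int.log 2 t + 2) := by
    have : (2 : ℝ) ^ (Int.log 2 t + 2) = 2 * (2 : ℝ) ^ (Int.log 2 t + 1) := by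
      rw [zpow_add₀ (by norm_num), zpow_add₀ (by norm_num)]
      norm_num
      ring
    rw [this]
    linarith
  have h6 : (2 : ℝ) ^ Int.log 2 t < (2 : ℝ) ^ (m + 2) := by
    have : (2 : ℝ) ^ (m + 2) = 4 * (2 : ℝ) ^ m := by
      rw [zpow_add₀ (by norm_num)]
      norm_num
      ring
    rw [this]
    linarith
  have h7 := (zpow_lt_zpow_iff_right₀ (by norm_num : (1 : ℝ) < 2)).mp h5
  have h8 := (zpow_lt_zpow_iff_right₀ (by norm_num : (1 : ℝ) < 2)).mp h6
  rw [Finset.mem_Icc]
  omega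

section conv

variable {V : Type} [Fintype V] [Nonempty V] {d : V → V → ℝ}

/-- the greatest nonexpansive function below `F` -/
noncomputable def ic (d : V → V → ℝ) (F : V → ℝ) (v : V) : ℝ :=
  Finset.univ.inf' Finset.univ_nonempty fun w => d v w + F w

theorem ic_le (hd : IsMet d) (F : V → ℝ) (v : V) : ic d F v ≤ F v := by
  have h := Finset.inf'_le (fun w => d v w + F w) (Finset.mem_univ v)
  rw [hd.self, zero_add] at h
  exact h

theorem le_ic {F : V → ℝ} {v : V} {b : ℝ} (h : ∀ w, b ≤ d v w + F w) : b ≤ ic d F v :=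
  Finset.le_inf' _ _ fun w _ => h w

theorem ic_lip (hd : IsMet d) (F : V → ℝ) (u v : V) : ic d F u ≤ ic d F v + d u v := by
  have : ic d F u - d u v ≤ ic d F v := by
    refine le_ic fun w => ?_
    have h : ic d F u ≤ d u w + F w :=
      Finset.inf'_le (fun w => d u w + F w) (Finset.mem_univ w)
    linarith [hd.tri u v w]
  linarith

end conv

theorem isSq_one {V : Type} {w : ℝ} (hw : 0 ≤ w) (f : V → ℝ) :
    IsSq (fun x y => w * (f x - f y) ^ 2) :=
  ⟨Unit, inferInstance, fun _ => w, fun _ => f, fun _ => hw, fun x y => by simp⟩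

theorem rowVar (hp : RowPad) : RowVar := by
  classical
  intro V _ G ℓ hc hP hℓ τ hτ0 hτl
  have hd := pathDist_isMet hc hℓ
  have : Nonempty V := hc.nonempty
  have := Fintype.ofFinite V
  have hτd : ∀ u v, |τ u - τ v| ≤ pathDist G ℓ u v := pathDist_gen hc hτl
  choose c hc1 hc2 using fun m : ℤ =>
    hp V G ℓ hc hP hℓ ((2 : ℝ) ^ m / 1000) 24 (by positivity) (by norm_num)
  obtain ⟨F, hF⟩ : ∃ F : ℤ → (Fin 24 × Fin 24 × Fin 24) → V → V → ℝ, ∀ m ω z v,
      F m ω z v = if c m ω v = z then tent ((2 : ℝ) ^ m) (τ v) else 0 := ⟨_, fun _ _ _ _ => rfl⟩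
  have hF0 : ∀ m ω z v, 0 ≤ F m ω z v := by
    intro m ω z v
    rw [hF]
    split_ifs
    · exact tent_nonneg _ _
    · exact le_rfl
  obtain ⟨g, hg⟩ : ∃ g : ℤ → (Fin 24 × Fin 24 × Fin 24) → V → V → ℝ, ∀ m ω z v,
      g m ω z v = ic (pathDist G ℓ) (F m ω z) v := ⟨_, fun _ _ _ _ => rfl⟩
  have hg0 : ∀ m ω z v, 0 ≤ g m ω z v := fun m ω z v => by
    rw [hg]
    exact le_ic fun w => add_nonneg (hd.nonneg _ _) (hF0 m ω z w)
  have hgF : ∀ m ω z v, g m ω z v ≤ F m ω z v := fun m ω z v => by rw [hg]; exact ic_le hd _ v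
  have hgz : ∀ m ω z v, c m ω v ≠ z → g m ω z v = 0 := by
    intro m ω z v h
    have h1 := hgF m ω z v
    rw [hF, if_neg h] at h1
    exact le_antisymm h1 (hg0 m ω z v)
  have hgt : ∀ m ω z v, tent ((2 : ℝ) ^ m) (τ v) = 0 → g m ω z v = 0 := by
    intro m ω z v h
    have h1 := hgF m ω z v
    rw [hF, h] at h1
    exact le_antisymm (by simpa using h1) (hg0 m ω z v)
  have hgl : ∀ m ω z u v, |g m ω z u - g m ω z v| ≤ pathDist G ℓ u v := by
    intro m ω z u v
    have h1 := ic_lip hd (F m ω z) u v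
    have h2 := ic_lip hd (F m ω z) v u
    rw [hd.symm v u] at h2
    rw [hg, hg, abs_le]
    constructor <;> linarith
  obtain ⟨T, hT⟩ : ∃ T : ℤ → V → V → ℝ, ∀ m x y, T m x y =
      ∑ ω : Fin 24 × Fin 24 × Fin 24, ∑ z, 1 / 13824 * (g m ω z x - g m ω z y) ^ 2 :=
    ⟨_, fun _ _ _ => rfl⟩
  have hTI : ∀ m, IsSq (T m) := by
    intro m
    have h : IsSq fun x y => ∑ ω : Fin 24 × Fin 24 × Fin 24, ∑ z,
        (1 / 13824 : ℝ) * (g m ω z x - g m ω z y) ^ 2 :=
      IsSq.sum Finset.univ (fun ω x y => ∑ z, (1 / 13824 : ℝ) * (g m ω z x - g m ω z y) ^ 2)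
        fun ω _ => IsSq.sum Finset.univ
          (fun z x y => (1 / 13824 : ℝ) * (g m ω z x - g m ω z y) ^ 2)
          fun z _ => isSq_one (by norm_num) _
    have e : T m = fun x y => ∑ ω : Fin 24 × Fin 24 × Fin 24, ∑ z,
        (1 / 13824 : ℝ) * (g m ω z x - g m ω z y) ^ 2 := by
      funext x y
      exact hT m x y
    rw [e]
    exact h
  have hcardΩ : Fintype.card (Fin 24 × Fin 24 × Fin 24) = 13824 := by
    rw [Fintype.card_prod, Fintype.card_prod, Fintype.card_fin]
  have hT2 : ∀ m u v, G.Adj u v → T m u v ≤ 2 * ℓ s(u, v) ^ 2 := by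
    intro m u v huv
    have hduv : pathDist G ℓ u v ≤ ℓ s(u, v) := pathDist_adj hℓ huv
    have hl : 0 < ℓ s(u, v) := hℓ _ huv
    have h1 : ∀ ω, ∑ z, 1 / 13824 * (g m ω z u - g m ω z v) ^ 2 ≤
        1 / 13824 * (2 * ℓ s(u, v) ^ 2) := by
      intro ω
      have h2 : ∀ z, 1 / 13824 * (g m ω z u - g m ω z v) ^ 2 ≤
          (if c m ω u = z then 1 / 13824 * ℓ s(u, v) ^ 2 else 0) +
          (if c m ω v = z then 1 / 13824 * ℓ s(u, v) ^ 2 else 0) := by
        intro z
        have h3 : (g m ω z u - g m ω z v) ^ 2 ≤ ℓ s(u, v) ^ 2 := by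
          rw [← sq_abs]
          exact pow_le_pow_left₀ (abs_nonneg _) ((hgl m ω z u v).trans hduv) 2
        have h4 : (0 : ℝ) ≤ 1 / 13824 * ℓ s(u, v) ^ 2 := by positivity
        by_cases hu : c m ω u = z
        · rw [if_pos hu]
          by_cases hv : c m ω v = z
          · rw [if_pos hv]; linarith
          · rw [if_neg hv]; linarith
        · by_cases hv : c m ω v = z
          · rw [if_neg hu, if_pos hv]; linarith
          · rw [if_neg hu, if_neg hv, hgz m ω z u hu, hgz m ω z v hv]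
            simp
      refine (Finset.sum_le_sum fun z _ => h2 z).trans (le_of_eq ?_)
      rw [Finset.sum_add_distrib, Finset.sum_ite_eq, Finset.sum_ite_eq, if_pos (Finset.mem_univ _),
        if_pos (Finset.mem_univ _)]
      ring
    rw [hT]
    refine (Finset.sum_le_sum fun ω _ => h1 ω).trans (le_of_eq ?_)
    rw [Finset.sum_const, Finset.card_univ, hcardΩ, nsmul_eq_mul]
    push_cast
    ring
  have hT0 : ∀ m u v, tent ((2 : ℝ) ^ m) (τ u) = 0 → tent ((2 : ℝ) ^ m) (τ v) = 0 →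
      T m u v = 0 := by
    intro m u v hu hv
    rw [hT]
    refine Finset.sum_eq_zero fun ω _ => Finset.sum_eq_zero fun z _ => ?_
    rw [hgt m ω z u hu, hgt m ω z v hv]
    simp
  obtain ⟨M, hM⟩ : ∃ M : Finset ℤ, M = Finset.univ.image fun v : V => Int.log 2 (τ v) :=
    ⟨_, rfl⟩
  refine ⟨fun x y => ∑ m ∈ M, T m x y, IsSq.sum M T fun m _ => hTI m, ?_, ?_⟩
  · intro u v huv
    obtain ⟨I, hI⟩ : ∃ I : Finset ℤ, I = Finset.Icc (Int.log 2 (τ u) - 1) (Int.log 2 (τ u) + 1) ∪
        Finset.Icc (Int.log 2 (τ v) - 1) (Int.log 2 (τ v) + 1) := ⟨_, rfl⟩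
    have hcard : I.card ≤ 6 := by
      rw [hI]
      refine (Finset.card_union_le _ _).trans ?_
      rw [Int.card_Icc, Int.card_Icc]
      omega
    have h0 : ∀ m, m ∉ I → T m u v = 0 := by
      intro m hm
      rw [hI, Finset.mem_union, not_or] at hm
      apply hT0
      · by_contra h; exact hm.1 (mem_scales h)
      · by_contra h; exact hm.2 (mem_scales h)
    have hl : 0 ≤ 2 * ℓ s(u, v) ^ 2 := by positivity
    calc ∑ m ∈ M, T m u v ≤ ∑ m ∈ M ∪ I, T m u v :=
          Finset.sum_le_sum_of_subset_of_nonneg Finset.subset_union_left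
            fun m _ _ => (hTI m).nonneg u v
      _ = ∑ m ∈ I, T m u v := by
          symm
          exact Finset.sum_subset Finset.subset_union_right fun m _ hm => h0 m hm
      _ ≤ ∑ _m ∈ I, 2 * ℓ s(u, v) ^ 2 := Finset.sum_le_sum fun m _ => hT2 m u v huv
      _ = I.card * (2 * ℓ s(u, v) ^ 2) := by rw [Finset.sum_const, nsmul_eq_mul]
      _ ≤ 6 * (2 * ℓ s(u, v) ^ 2) := by
          apply mul_le_mul_of_nonneg_right _ hl
          exact_mod_cast hcard
      _ = _ := by ring
  · intro x y hx hxy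
    obtain ⟨m, hm⟩ : ∃ m, m = Int.log 2 (τ x) := ⟨_, rfl⟩
    obtain ⟨s, hs⟩ : ∃ s, s = (2 : ℝ) ^ m := ⟨_, rfl⟩
    have hs0 : 0 < s := by rw [hs]; positivity
    have h3 : ((2 : ℕ) : ℝ) ^ Int.log 2 (τ x) ≤ τ x := Int.zpow_log_le_self (by norm_num) hx
    have h4 : τ x < ((2 : ℕ) : ℝ) ^ (Int.log 2 (τ x) + 1) :=
      Int.lt_zpow_succ_log_self (by norm_num) _
    push_cast at h3 h4
    rw [← hm, ← hs] at h3
    rw [← hm, zpow_add_one₀ (by norm_num), ← hs] at h4
    have hmM : m ∈ M := by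
      rw [hM, hm]
      exact Finset.mem_image_of_mem _ (Finset.mem_univ x)
    have hle : T m x y ≤ ∑ m ∈ M, T m x y :=
      Finset.single_le_sum (f := fun m => T m x y) (fun m _ => (hTI m).nonneg x y) hmM
    -- the good indices
    have hbad := hc2 m x (s / 16000) (by positivity)
    obtain ⟨Bd, hBd⟩ : ∃ Bd : Set (Fin 24 × Fin 24 × Fin 24),
        Bd = {ω | ∃ v, pathDist G ℓ x v ≤ s / 16000 ∧ c m ω x ≠ c m ω v} := ⟨_, rfl⟩
    rw [← hBd, ← hs] at hbad
    have hb2 : (Bd.ncard : ℝ) ≤ 6912 := by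
      refine hbad.trans (le_of_eq ?_)
      have : 2 * (s / 16000) / (s / 1000) = 1 / 8 := by field_simp; norm_num
      rw [this]
      norm_num
    have hterm : ∀ ω, ω ∉ Bd → 1 / 13824 * (s / 16000) ^ 2 ≤
        ∑ z, 1 / 13824 * (g m ω z x - g m ω z y) ^ 2 := by
      intro ω hω
      have hne : c m ω x ≠ c m ω y := by
        intro h
        have := hc1 m ω x y h
        rw [← hs] at this
        linarith
      have h5 : s / 16000 ≤ g m ω (c m ω x) x := by
        rw [hg]
        refine le_ic fun w => ?_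
        by_cases hw : pathDist G ℓ x w ≤ s / 16000
        · have hcw : c m ω x = c m ω w := by
            by_contra h
            apply hω
            rw [hBd]
            exact ⟨w, hw, h⟩
          rw [hF, if_pos hcw.symm, ← hs]
          have h6 := tent_lip s (τ x) (τ w)
          have h7 := hτd x w
          have h8 := tent_ge (s := s) (t := τ x) h3 (by linarith)
          linarith
        · have := hF0 m ω (c m ω x) w
          linarith
      have h6 : g m ω (c m ω x) y = 0 := hgz m ω _ y (fun h => hne h.symm)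
      have h7 : 1 / 13824 * (g m ω (c m ω x) x - g m ω (c m ω x) y) ^ 2 ≤
          ∑ z, 1 / 13824 * (g m ω z x - g m ω z y) ^ 2 :=
        Finset.single_le_sum (f := fun z => 1 / 13824 * (g m ω z x - g m ω z y) ^ 2)
          (fun z _ => by positivity) (Finset.mem_univ _)
      refine le_trans ?_ h7
      rw [h6, sub_zero]
      exact mul_le_mul_of_nonneg_left (pow_le_pow_left₀ (by positivity) h5 2) (by norm_num)
    have hsum : (6912 : ℝ) * (1 / 13824 * (s / 16000) ^ 2) ≤ T m x y := by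
      rw [hT]
      have hBf : Bd.ncard = (Bd.toFinset).card := Set.ncard_eq_toFinset_card' Bd
      have h1 : ∑ ω ∈ Finset.univ \ Bd.toFinset, (1 / 13824 * (s / 16000) ^ 2 : ℝ) ≤
          ∑ ω : Fin 24 × Fin 24 × Fin 24, ∑ z, 1 / 13824 * (g m ω z x - g m ω z y) ^ 2 := by
        refine (Finset.sum_le_sum fun ω hω => hterm ω ?_).trans
          (Finset.sum_le_sum_of_subset_of_nonneg (Finset.subset_univ _) fun ω _ _ =>
            Finset.sum_nonneg fun z _ => by positivity)
        intro h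
        exact (Finset.mem_sdiff.mp hω).2 (Set.mem_toFinset.mpr h)
      refine le_trans ?_ h1
      rw [Finset.sum_const, nsmul_eq_mul]
      apply mul_le_mul_of_nonneg_right _ (by positivity)
      have h2 : ((Finset.univ \ Bd.toFinset).card : ℝ) = 13824 - Bd.ncard := by
        rw [Finset.card_univ_sdiff, hcardΩ, hBf, Nat.cast_sub]
        · norm_num
        · rw [← hcardΩ]; exact Finset.card_le_univ _
      rw [h2]
      linarith
    have h5 : τ x ^ 2 ≤ (2 * s) ^ 2 := pow_le_pow_left₀ hx.le (by linarith) 2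
    have h6 : (6912 : ℝ) * (1 / 13824 * (s / 16000) ^ 2) = s ^ 2 / 512000000 := by ring
    have h7 : (2 * s) ^ 2 = 4 * s ^ 2 := by ring
    have h8 : (10 : ℝ) ^ 10 = 10000000000 := by norm_num
    have h9 := (hTI m).nonneg x y
    rw [h6] at hsum
    rw [h7] at h5
    show τ x ^ 2 ≤ 10 ^ 10 * ∑ m ∈ M, T m x y
    rw [h8]
    generalize ∑ m ∈ M, T m x y = S at hle ⊢
    linarith

end Vale.Agent.P235.Kpr.H549
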