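import Vale.Agent.P235.R2.H549.KLanes
import Vale.Agent.P235.R2.H549.KVar
import Vale.Agent.P235.R2.H341.K1
import Vale.Agent.P235.R2.H934.KrK2
import Vale.Agent.P235.R2.H680.RowPot
import Vale.Agent.P235.R2.H907.RowCount

/-!
P235 (helper549).  Lanes of one nonexpansive function in a graph without a `K_r` minor: the theorem.
-/

set_option autoImplicit false

namespace Vale.Agent.P235.Kr.H549

open Vale.Agent.P235 Vale.Agent.P235.Kpr Vale.Agent.P235.Kr

theorem padK : RowPadK := R2.H907.KprPadK.rowPadK rowPot rowCount (rowK2 rowK1)

theorem varK : RowVarK := rowVarK padK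

/-- `s` lanes of one nonexpansive function in a graph without a `K_r` minor embed with distortion
`O((r + 2)³ √log s)` -/
theorem lanesK : RowLanesK := rowLanesK varK

end Vale.Agent.P235.Kr.H549
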