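import Vale.Agent.P235.R2.H341.KrSpec
import Vale.Agent.P235.R2.H907.PadK
import Vale.Agent.P235.R2.H718.DescSpec

/-!
P235 (helper549).  Measured descent over lanes in graphs without a `K_r` minor: literal rows.
-/

set_option autoImplicit false

namespace Vale.Agent.P235.Kr

open Vale.Agent.P235 Vale.Agent.P235.Kpr

/-- (Mk) one map at the variable scale `τ` -/
def RowVarK : Prop :=
  ∀ (r : ℕ) (V : Type) [Finite V] (G : SimpleGraph V) (ℓ : Sym2 V → ℝ), G.Connected →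
    NoK r G → (∀ e ∈ G.edgeSet, 0 < ℓ e) →
    ∀ τ : V → ℝ, (∀ v, 0 ≤ τ v) → (∀ u v, G.Adj u v → |τ u - τ v| ≤ ℓ s(u, v)) →
    ∃ N : V → V → ℝ, IsSq N ∧ (∀ u v, G.Adj u v → N u v ≤ 12 * ℓ s(u, v) ^ 2) ∧
      ∀ x y, 0 < τ x → τ x ≤ 2 * pathDist G ℓ x y →
        τ x ^ 2 ≤ (500 * ((r : ℝ) + 2) ^ 3) ^ 2 * N x y

/-- (Lk) the union of `s` lanes of one nonexpansive function -/
def RowLanesK : Prop :=
  ∃ C : ℝ, 1 ≤ C ∧ ∀ (r : ℕ) (V : Type) [Finite V] (G : SimpleGraph V) (ℓ : Sym2 V → ℝ),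
    G.Connected → NoK r G → (∀ e ∈ G.edgeSet, 0 < ℓ e) →
    ∀ (u : V → ℝ), (∀ a b, |u a - u b| ≤ pathDist G ℓ a b) → ∀ (s : ℕ) (L : Fin s → Set V),
    (∀ i, ∀ a ∈ L i, ∀ b ∈ L i, pathDist G ℓ a b ≤ |u a - u b|) → (⋃ i, L i).Nonempty →
    EmbedsL1 (fun x y : ↥(⋃ i, L i) => pathDist G ℓ x y)
      (C * ((r : ℝ) + 2) ^ 3 * √(Real.log ((s : ℝ) + 2)))

end Vale.Agent.P235.Kr
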