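import Vale.Agent.P235.R2.H549.Lanes
import Vale.Agent.P235.R2.H549.Var
import Vale.Agent.P235.R2.H721.KprPad
import Vale.Agent.P235.R2.H90.KprDiam
import Vale.Agent.P235.R2.H680.RowPot
import Vale.Agent.P235.R2.H907.RowCount
import Vale.Agent.P235.R2.H611.KprR1
import Vale.Agent.P235.R2.H582.KprStage

/-!
P235 (helper549).  Lanes of one nonexpansive function in a plane graph: the theorem.
-/

set_option autoImplicit false

namespace Vale.Agent.P235.Kpr.H549

open Vale.Agent.P235 Vale.Agent.P235.Kpr

theorem pad : RowPad := R2.H721.rowPad rowPot rowCount (rowDiam rowMinor rowStage)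

theorem var : RowVar := rowVar pad

/-- `s` lanes of one nonexpansive function in a plane graph embed with distortion `O(√log s)` -/
theorem lanes : RowLanes := rowLanes var

end Vale.Agent.P235.Kpr.H549
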