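import Vale.Agent.P235.R2.H582.KprSpec

/-!
P235 (helper549).  Row R7: random retractions onto arbitrary sets, from random partitions.
-/

set_option autoImplicit false

namespace Vale.Agent.P235.Kpr.H549

open Vale.Agent.P235 Vale.Agent.P235.Kpr

open scoped Classical in
theorem sum_ind {ι : Type} [Fintype ι] (P : ι → Prop) :
    ∑ i, (if P i then (1 : ℝ) else 0) = ({i | P i}.ncard : ℝ) := by
  rw [Finset.sum_boole, Set.ncard_eq_toFinset_card']
  simp

theorem avg {κ Ω : Type} [Fintype κ] [Fintype Ω] (D : κ → Ω → ℝ) (P : κ → Prop)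
    (Q : κ → Ω → Prop) {M q p : ℝ} (hM : 0 ≤ M) (hq : 0 ≤ q)
    (h1 : ∀ k ω, D k ω ≤ M) (h2 : ∀ k ω, ¬ P k → ¬ Q k ω → D k ω ≤ 0)
    (hp : ({k | P k}.ncard : ℝ) ≤ p) (hQ : ∀ k, ¬ P k → ({ω | Q k ω}.ncard : ℝ) ≤ q) :
    ∑ k, ∑ ω, D k ω ≤ M * (p * Fintype.card Ω + Fintype.card κ * q) := by
  classical
  have h : ∀ k, ∑ ω, D k ω ≤ M * ((if P k then (1 : ℝ) else 0) * Fintype.card Ω + q) := by
    intro k
    by_cases hk : P k
    · rw [if_pos hk]
      calc ∑ ω, D k ω ≤ ∑ _ω : Ω, M := Finset.sum_le_sum fun ω _ => h1 k ω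
        _ = Fintype.card Ω * M := by simp
        _ ≤ _ := by nlinarith [mul_nonneg hM hq]
    · rw [if_neg hk]
      have h3 : ∀ ω, D k ω ≤ M * (if Q k ω then (1 : ℝ) else 0) := by
        intro ω
        by_cases hω : Q k ω
        · rw [if_pos hω]; linarith [h1 k ω]
        · rw [if_neg hω]; linarith [h2 k ω hk hω]
      calc ∑ ω, D k ω ≤ ∑ ω, M * (if Q k ω then (1 : ℝ) else 0) :=
            Finset.sum_le_sum fun ω _ => h3 ω
        _ = M * ({ω | Q k ω}.ncard : ℝ) := by rw [← Finset.mul_sum, sum_ind]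
        _ ≤ M * q := mul_le_mul_of_nonneg_left (hQ k hk) hM
        _ = _ := by ring
  calc ∑ k, ∑ ω, D k ω
      ≤ ∑ k, M * ((if P k then (1 : ℝ) else 0) * Fintype.card Ω + q) :=
        Finset.sum_le_sum fun k _ => h k
    _ = M * (({k | P k}.ncard : ℝ) * Fintype.card Ω + Fintype.card κ * q) := by
        rw [← Finset.mul_sum, Finset.sum_add_distrib, ← Finset.sum_mul, sum_ind]
        simp
    _ ≤ _ := by
        apply mul_le_mul_of_nonneg_left _ hM
        have := mul_le_mul_of_nonneg_right hp (Nat.cast_nonneg (α := ℝ) (Fintype.card Ω))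
        linarith

theorem log_diff {a b l : ℝ} (ha : 0 < a) (hb : 0 < b) (h : a ≤ b + l) :
    Real.log a - Real.log b ≤ l / b := by
  rw [← Real.log_div ha.ne' hb.ne']
  refine (Real.log_le_sub_one_of_pos (div_pos ha hb)).trans ?_
  rw [← sub_nonneg]
  have : l / b - (a / b - 1) = (b + l - a) / b := by field_simp; ring
  rw [this]
  exact div_nonneg (by linarith) hb.le

/-- the level of a positive real number -/
noncomputable def lvl (N : ℕ) (k : Fin N) (a : ℝ) : ℤ :=
  ⌊(Real.log a + ((k : ℕ) : ℝ) * Real.log 2 / (N : ℝ)) / Real.log 2⌋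

/-- the scale of a level -/
noncomputable def sca (N : ℕ) (k : Fin N) (j : ℤ) : ℝ :=
  Real.exp ((j : ℝ) * Real.log 2 - ((k : ℕ) : ℝ) * Real.log 2 / (N : ℝ))

theorem log2_pos : 0 < Real.log 2 := Real.log_pos (by norm_num)

theorem sca_le {N : ℕ} (k : Fin N) {a : ℝ} (ha : 0 < a) : sca N k (lvl N k a) ≤ a := by
  have h := Int.floor_le ((Real.log a + ((k : ℕ) : ℝ) * Real.log 2 / (N : ℝ)) / Real.log 2)
  rw [le_div_iff₀ log2_pos] at h
  calc sca N k (lvl N k a) ≤ Real.exp (Real.log a) := by
        apply Real.exp_le_exp.mpr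
        unfold lvl
        linarith
    _ = a := Real.exp_log ha

theorem lt_sca {N : ℕ} (k : Fin N) {a : ℝ} (ha : 0 < a) : a < 2 * sca N k (lvl N k a) := by
  have h := Int.lt_floor_add_one
    ((Real.log a + ((k : ℕ) : ℝ) * Real.log 2 / (N : ℝ)) / Real.log 2)
  rw [div_lt_iff₀ log2_pos] at h
  calc a = Real.exp (Real.log a) := (Real.exp_log ha).symm
    _ < Real.exp (Real.log 2 + (((lvl N k a : ℤ) : ℝ) * Real.log 2 -
        ((k : ℕ) : ℝ) * Real.log 2 / (N : ℝ))) := by
        apply Real.exp_lt_exp.mpr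
        unfold lvl
        linarith
    _ = 2 * sca N k (lvl N k a) := by
        rw [Real.exp_add, Real.exp_log (by norm_num)]
        rfl

theorem rowRetr (h3 : RowCount) (h6 : RowKPR) : RowRetr := by
  classical
  intro V _ G ℓ hc hP hℓ X ν hν
  have hd := pathDist_isMet hc hℓ
  have : Nonempty V := hc.nonempty
  obtain ⟨r, hr⟩ : ∃ r : V → ℝ, ∀ v, r v = pathDist G ℓ v (ν v) := ⟨_, fun _ => rfl⟩
  have hrpos : ∀ v, v ∉ X → 0 < r v := fun v hv => by rw [hr]; exact near_pos hc hℓ hν hv
  have hrX : ∀ v, v ∈ X → r v = 0 := fun v hv => by rw [hr, hν.self v hv]; exact hd.self v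
  have hrnn : ∀ v, 0 ≤ r v := fun v => by rw [hr]; exact hd.nonneg _ _
  have hrlip : ∀ u v, r u ≤ r v + pathDist G ℓ u v := by
    intro u v
    have a := hν.le u (ν v) (hν.mem v)
    have b := hd.tri u v (ν v)
    rw [hr, hr]; linarith
  obtain ⟨N, hN0, hN⟩ : ∃ N : ℕ, 0 < N ∧ ∀ u v, G.Adj u v → r v ≤ N * ℓ s(u, v) := by
    obtain ⟨B, hB⟩ := (Set.finite_range (fun p : V × V => r p.2 / ℓ s(p.1, p.2))).bddAbove
    refine ⟨⌈B⌉₊ + 1, by omega, fun u v huv => ?_⟩
    have h1 : r v / ℓ s(u, v) ≤ B := hB ⟨(u, v), rfl⟩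
    have h2 : 0 < ℓ s(u, v) := hℓ _ huv
    rw [div_le_iff₀ h2] at h1
    have h3 : B ≤ ((⌈B⌉₊ + 1 : ℕ) : ℝ) := by
      push_cast
      linarith [Nat.le_ceil B]
    exact h1.trans (mul_le_mul_of_nonneg_right h3 h2.le)
  have hNr : (0 : ℝ) < N := by exact_mod_cast hN0
  choose c hc1 hc2 using fun s : {s : ℝ // 0 < s} =>
    h6 V G ℓ hc hP hℓ (s.1 / 52) N (by have := s.2; positivity) hN0
  obtain ⟨F, hF⟩ : ∃ F : Fin N → (Fin N × Fin N × Fin N) → V → ℤ × V, ∀ k ω v,
      F k ω v = (lvl N k (r v), c ⟨sca N k (lvl N k (r v)), Real.exp_pos _⟩ ω v) :=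
    ⟨_, fun _ _ _ => rfl⟩
  obtain ⟨pick, hpick⟩ : ∃ pick : Fin N → (Fin N × Fin N × Fin N) → ℤ × V → V,
      ∀ k ω v, v ∉ X → pick k ω (F k ω v) ∉ X ∧ F k ω (pick k ω (F k ω v)) = F k ω v := by
    refine ⟨fun k ω p => if h : ∃ w, w ∉ X ∧ F k ω w = p then h.choose
      else Classical.arbitrary V, fun k ω v hv => ?_⟩
    have h : ∃ w, w ∉ X ∧ F k ω w = F k ω v := ⟨v, hv, rfl⟩
    simp only [dif_pos h]
    exact h.choose_spec
  obtain ⟨π, hπX, hπ⟩ : ∃ π : Fin N × (Fin N × Fin N × Fin N) → V → V,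
      (∀ i v, v ∈ X → π i v = v) ∧ ∀ i v, v ∉ X → π i v = ν (pick i.1 i.2 (F i.1 i.2 v)) :=
    ⟨fun i v => if v ∈ X then v else ν (pick i.1 i.2 (F i.1 i.2 v)),
      fun i v hv => if_pos hv, fun i v hv => if_neg hv⟩
  have hdist : ∀ i v, pathDist G ℓ v (π i v) ≤ 3 * r v := by
    intro i v
    by_cases hv : v ∈ X
    · rw [hπX i v hv, hd.self]; linarith [hrnn v]
    · rw [hπ i v hv]
      obtain ⟨hw, hFw⟩ := hpick i.1 i.2 v hv
      generalize pick i.1 i.2 (F i.1 i.2 v) = w at hw hFw
      rw [hF, hF, Prod.mk.injEq] at hFw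
      obtain ⟨e1, e2⟩ := hFw
      rw [e1] at e2
      have a1 := hc1 _ _ _ _ e2
      have a2 := sca_le i.1 (hrpos v hv)
      have a3 := lt_sca i.1 (hrpos w hw)
      rw [e1, hr w] at a3
      have a4 := hd.tri v w (ν w)
      rw [hd.symm w v] at a1
      simp only at a1
      linarith
  refine ⟨Fin N × (Fin N × Fin N × Fin N), inferInstance, fun _ => 1 / (N : ℝ) ^ 4, π,
    fun _ => by positivity, ?_, ?_, ?_, ?_⟩
  · rw [Finset.sum_const, Finset.card_univ, Fintype.card_prod, Fintype.card_prod,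
      Fintype.card_prod, Fintype.card_fin, nsmul_eq_mul]
    push_cast
    field_simp
  · intro i v
    by_cases hv : v ∈ X
    · rw [hπX i v hv]; exact hv
    · rw [hπ i v hv]; exact hν.mem _
  · intro u v huv
    have hl : 0 < ℓ s(u, v) := hℓ _ huv
    have hN1 : r v ≤ N * ℓ s(u, v) := hN u v huv
    obtain ⟨l, hl'⟩ : ∃ l, l = ℓ s(u, v) := ⟨_, rfl⟩
    have hduv : pathDist G ℓ u v ≤ ℓ s(u, v) := pathDist_adj hℓ huv
    have hgen : ∀ i, pathDist G ℓ (π i u) (π i v) ≤ 3 * r u + 3 * r v + l := by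
      intro i
      have b1 := hd.tri (π i u) u (π i v)
      have b2 := hd.tri u v (π i v)
      have b3 := hdist i u
      have b4 := hdist i v
      rw [hd.symm (π i u) u] at b1
      linarith
    have huv1 : r u ≤ r v + l := by linarith [hrlip u v]
    have huv2 : r v ≤ r u + l := by
      have := hrlip v u
      rw [hd.symm v u] at this
      linarith
    have hsum : ∑ i, 1 / (N : ℝ) ^ 4 * pathDist G ℓ (π i u) (π i v) =
        1 / (N : ℝ) ^ 4 * ∑ k, ∑ ω, pathDist G ℓ (π (k, ω) u) (π (k, ω) v) := by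
      rw [← Finset.mul_sum, Fintype.sum_prod_type]
    rw [hsum]
    rw [← hl'] at hl hN1 hduv ⊢
    have key : ∑ k, ∑ ω, pathDist G ℓ (π (k, ω) u) (π (k, ω) v) ≤ 5000 * l * (N : ℝ) ^ 4 := by
      by_cases hA : r u ≤ l ∨ r v ≤ l
      · have hb : ∀ k ω, pathDist G ℓ (π (k, ω) u) (π (k, ω) v) ≤ 10 * l := by
          intro k ω
          have := hgen (k, ω)
          rcases hA with h | h <;> linarith
        calc ∑ k, ∑ ω, pathDist G ℓ (π (k, ω) u) (π (k, ω) v)
            ≤ ∑ _k : Fin N, ∑ _ω : Fin N × Fin N × Fin N, 10 * l :=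
              Finset.sum_le_sum fun k _ => Finset.sum_le_sum fun ω _ => hb k ω
          _ = (N : ℝ) ^ 4 * (10 * l) := by
              simp only [Finset.sum_const, Finset.card_univ, Fintype.card_prod, Fintype.card_fin,
                nsmul_eq_mul]
              push_cast
              ring
          _ ≤ _ := by
              have : 0 ≤ (N : ℝ) ^ 4 * l := by positivity
              nlinarith
      · push Not at hA
        obtain ⟨hu, hv⟩ := hA
        have huX : u ∉ X := fun h => by rw [hrX u h] at hu; linarith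
        have hvX : v ∉ X := fun h => by rw [hrX v h] at hv; linarith
        obtain ⟨m, hm⟩ : ∃ m, m = min (r u) (r v) := ⟨_, rfl⟩
        have hmu : m ≤ r u := hm ▸ min_le_left _ _
        have hmv : m ≤ r v := hm ▸ min_le_right _ _
        have hlm : l < m := by rw [hm]; exact lt_min hu hv
        have hm0 : 0 < m := hl.trans hlm
        have hsum2 : 3 * r u + 3 * r v + l ≤ 10 * m := by
          rcases min_choice (r u) (r v) with h | h <;> rw [h] at hm <;> linarith
        have ht : |Real.log (r u) - Real.log (r v)| ≤ l / m := by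
          rw [abs_le]
          have t1 := log_diff (hrpos u huX) (hrpos v hvX) huv1
          have t2 := log_diff (hrpos v hvX) (hrpos u huX) huv2
          have t3 : l / r v ≤ l / m := div_le_div_of_nonneg_left hl.le hm0 hmv
          have t4 : l / r u ≤ l / m := div_le_div_of_nonneg_left hl.le hm0 hmu
          constructor <;> linarith
        have hcnt := h3 _ _ _ (Real.log 2) N ht log2_pos hN0
        have hav := avg (fun k ω => pathDist G ℓ (π (k, ω) u) (π (k, ω) v))
          (fun k => lvl N k (r u) ≠ lvl N k (r v))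
          (fun k ω => c ⟨sca N k (lvl N k (r u)), Real.exp_pos _⟩ ω u ≠
            c ⟨sca N k (lvl N k (r u)), Real.exp_pos _⟩ ω v)
          (M := 10 * m) (q := 3 * (N : ℝ) ^ 3 * (104 * (l / m) + 1 / N))
          (p := N * (l / m) / Real.log 2 + 1) (by positivity) (by positivity)
          (fun k ω => (hgen (k, ω)).trans hsum2) ?_ hcnt ?_
        · refine hav.trans ?_
          simp only [Fintype.card_prod, Fintype.card_fin]
          push_cast
          have hL : 1 / 2 ≤ Real.log 2 := by
            have := Real.one_sub_inv_le_log_of_pos (show (0 : ℝ) < 2 by norm_num)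
            linarith
          have hL1 : l / Real.log 2 ≤ 2 * l := by
            rw [div_le_iff₀ log2_pos]
            nlinarith
          have hmN : m / N ≤ l := by
            rw [div_le_iff₀ hNr]
            linarith
          have e : 10 * m * ((N * (l / m) / Real.log 2 + 1) * (N * (N * N)) +
              N * (3 * (N : ℝ) ^ 3 * (104 * (l / m) + 1 / N))) =
              (N : ℝ) ^ 4 * (10 * (l / Real.log 2) + 3120 * l + 40 * (m / N)) := by
            have := log2_pos.ne'
            field_simp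
            ring
          rw [e]
          have h4 : (0 : ℝ) ≤ (N : ℝ) ^ 4 := by positivity
          calc (N : ℝ) ^ 4 * (10 * (l / Real.log 2) + 3120 * l + 40 * (m / N))
              ≤ (N : ℝ) ^ 4 * (5000 * l) := mul_le_mul_of_nonneg_left (by linarith) h4
            _ = _ := by ring
        · intro k ω hk hω
          have hk' : lvl N k (r u) = lvl N k (r v) := not_not.mp hk
          have hω' := not_not.mp hω
          have e : F k ω u = F k ω v := by
            rw [hF, hF, Prod.mk.injEq]
            refine ⟨hk', ?_⟩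
            rw [hω']
            congr 1
            simp only [hk']
          have : π (k, ω) u = π (k, ω) v := by
            rw [hπ _ u huX, hπ _ v hvX]
            simp only [e]
          rw [this, hd.self]
        · intro k hk
          refine (hc2 _ u v huv).trans ?_
          have hs := lt_sca k (hrpos u huX)
          have hs0 : 0 < sca N k (lvl N k (r u)) := Real.exp_pos _
          apply mul_le_mul_of_nonneg_left _ (by positivity)
          have : ℓ s(u, v) / (sca N k (lvl N k (r u)) / 52) ≤ 104 * (l / m) := by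
            rw [← hl', div_le_iff₀ (by positivity)]
            have : 104 * (l / m) * (sca N k (lvl N k (r u)) / 52) =
              l * (2 * sca N k (lvl N k (r u)) / m) := by
              field_simp
              ring
            rw [this]
            have h1 : 1 ≤ 2 * sca N k (lvl N k (r u)) / m := by
              rw [le_div_iff₀ hm0]
              linarith
            nlinarith
          linarith
    rw [one_div, inv_mul_le_iff₀ (by positivity)]
    linarith
  · intro i v
    rw [← hr v]
    exact hdist i v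

end Vale.Agent.P235.Kpr.H549
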