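import Vale.Agent.P235.R2.H686.KlSpec
import Vale.Agent.P235.R2.H549.Var

/-!
P235 (helper549).  Row (A) of KlSpec: one map at a variable scale with a base point, graphs without
a `K_r` minor.
-/

set_option autoImplicit false

namespace Vale.Agent.P235.Kl.H549

open Vale.Agent.P235 Vale.Agent.P235.Kpr Vale.Agent.P235.Kpr.H549 Vale.Agent.P235.Kr

theorem tent_le {s t : ℝ} (hs : 0 < s) (ht : 0 ≤ t) : tent s t ≤ t := by
  unfold tent
  apply max_le ht
  exact (min_le_left _ _).trans (by linarith)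

/-- the maps of one scale, for one partition `c` -/
theorem one {V : Type} [Finite V] {G : SimpleGraph V} {ℓ : Sym2 V → ℝ} (hc : G.Connected)
    (hℓ : ∀ e ∈ G.edgeSet, 0 < ℓ e) {τ : V → ℝ} (hτ0 : ∀ v, 0 ≤ τ v)
    (hτd : ∀ u v, |τ u - τ v| ≤ pathDist G ℓ u v) {s : ℝ} (hs : 0 < s) (c : V → V) :
    ∃ T : Option V → Option V → ℝ, IsSq T ∧
      (∀ u v, T (some u) (some v) ≤ 2 * pathDist G ℓ u v ^ 2) ∧
      (∀ v, T (some v) none ≤ τ v ^ 2) ∧ (∀ v, tent s (τ v) = 0 → T (some v) none = 0) ∧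
      (∀ u v, tent s (τ u) = 0 → tent s (τ v) = 0 → T (some u) (some v) = 0) ∧
      ∀ x y t, 0 ≤ t → t ≤ tent s (τ x) → c x ≠ c y → (∀ w, pathDist G ℓ x w ≤ t → c x = c w) →
        t ^ 2 ≤ T (some x) (some y) := by
  classical
  have hd := pathDist_isMet hc hℓ
  have : Nonempty V := hc.nonempty
  have := Fintype.ofFinite V
  obtain ⟨F, hF⟩ : ∃ F : V → V → ℝ, ∀ z v, F z v = if c v = z then tent s (τ v) else 0 :=
    ⟨_, fun _ _ => rfl⟩
  have hF0 : ∀ z v, 0 ≤ F z v := by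
    intro z v
    rw [hF]
    split_ifs
    · exact tent_nonneg _ _
    · exact le_rfl
  obtain ⟨g, hg⟩ : ∃ g : V → V → ℝ, ∀ z v, g z v = ic (pathDist G ℓ) (F z) v :=
    ⟨_, fun _ _ => rfl⟩
  have hg0 : ∀ z v, 0 ≤ g z v := fun z v => by
    rw [hg]
    exact le_ic fun w => add_nonneg (hd.nonneg _ _) (hF0 z w)
  have hgF : ∀ z v, g z v ≤ F z v := fun z v => by rw [hg]; exact ic_le hd _ v
  have hgz : ∀ z v, c v ≠ z → g z v = 0 := by
    intro z v h
    have h1 := hgF z v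
    rw [hF, if_neg h] at h1
    exact le_antisymm h1 (hg0 z v)
  have hgt : ∀ z v, tent s (τ v) = 0 → g z v = 0 := by
    intro z v h
    have h1 := hgF z v
    rw [hF, h] at h1
    exact le_antisymm (by simpa using h1) (hg0 z v)
  have hgl : ∀ z u v, |g z u - g z v| ≤ pathDist G ℓ u v := by
    intro z u v
    have h1 := ic_lip hd (F z) u v
    have h2 := ic_lip hd (F z) v u
    rw [hd.symm v u] at h2
    rw [hg, hg, abs_le]
    constructor <;> linarith
  refine ⟨fun x y => ∑ z, 1 * (x.elim 0 (g z) - y.elim 0 (g z)) ^ 2,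
    IsSq.sum Finset.univ (fun z (x y : Option V) => 1 * (x.elim 0 (g z) - y.elim 0 (g z)) ^ 2)
      fun z _ => isSq_one zero_le_one fun x : Option V => x.elim 0 (g z), ?_, ?_, ?_, ?_, ?_⟩
  · intro u v
    show ∑ z, 1 * (g z u - g z v) ^ 2 ≤ _
    have h2 : ∀ z, 1 * (g z u - g z v) ^ 2 ≤ (if c u = z then pathDist G ℓ u v ^ 2 else 0) +
        (if c v = z then pathDist G ℓ u v ^ 2 else 0) := by
      intro z
      have h3 : (g z u - g z v) ^ 2 ≤ pathDist G ℓ u v ^ 2 := by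
        rw [← sq_abs]
        exact pow_le_pow_left₀ (abs_nonneg _) (hgl z u v) 2
      have h4 : (0 : ℝ) ≤ pathDist G ℓ u v ^ 2 := sq_nonneg _
      by_cases hu : c u = z
      · rw [if_pos hu]
        by_cases hv : c v = z
        · rw [if_pos hv]; linarith
        · rw [if_neg hv]; linarith
      · by_cases hv : c v = z
        · rw [if_neg hu, if_pos hv]; linarith
        · rw [if_neg hu, if_neg hv, hgz z u hu, hgz z v hv]
          simp
    refine (Finset.sum_le_sum fun z _ => h2 z).trans (le_of_eq ?_)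
    rw [Finset.sum_add_distrib, Finset.sum_ite_eq, Finset.sum_ite_eq, if_pos (Finset.mem_univ _),
      if_pos (Finset.mem_univ _)]
    ring
  · intro v
    show ∑ z, 1 * (g z v - 0) ^ 2 ≤ _
    have h2 : ∀ z, 1 * (g z v - 0) ^ 2 ≤ (if c v = z then τ v ^ 2 else 0) := by
      intro z
      by_cases hv : c v = z
      · rw [if_pos hv, sub_zero, one_mul]
        apply pow_le_pow_left₀ (hg0 z v)
        have h3 := hgF z v
        rw [hF, if_pos hv] at h3
        exact h3.trans (tent_le hs (hτ0 v))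
      · rw [if_neg hv, hgz z v hv]
        simp
    refine (Finset.sum_le_sum fun z _ => h2 z).trans (le_of_eq ?_)
    rw [Finset.sum_ite_eq, if_pos (Finset.mem_univ _)]
  · intro v hv
    show ∑ z, 1 * (g z v - 0) ^ 2 = _
    refine Finset.sum_eq_zero fun z _ => ?_
    rw [hgt z v hv]
    simp
  · intro u v hu hv
    show ∑ z, 1 * (g z u - g z v) ^ 2 = _
    refine Finset.sum_eq_zero fun z _ => ?_
    rw [hgt z u hu, hgt z v hv]
    simp
  · intro x y t ht0 ht hxy hball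
    show t ^ 2 ≤ ∑ z, 1 * (g z x - g z y) ^ 2
    have h5 : t ≤ g (c x) x := by
      rw [hg]
      refine le_ic fun w => ?_
      by_cases hw : pathDist G ℓ x w ≤ t
      · rw [hF, if_pos (hball w hw).symm]
        have h6 := tent_lip s (τ x) (τ w)
        have h7 := hτd x w
        linarith
      · have := hF0 (c x) w
        linarith
    have h6 : g (c x) y = 0 := hgz _ y (fun h => hxy h.symm)
    have h7 : 1 * (g (c x) x - g (c x) y) ^ 2 ≤ ∑ z, 1 * (g z x - g z y) ^ 2 :=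
      Finset.single_le_sum (f := fun z => 1 * (g z x - g z y) ^ 2)
        (fun z _ => by positivity) (Finset.mem_univ _)
    refine le_trans ?_ h7
    rw [h6, sub_zero, one_mul]
    exact pow_le_pow_left₀ ht0 h5 2

/-- the average over the partitions -/
theorem avg_sq {V : Type} {Ω : Type} [Fintype Ω] {T : Ω → V → V → ℝ} (hT : ∀ ω, IsSq (T ω)) {W : ℝ}
    (hW0 : 0 < W) : IsSq fun x y => ∑ ω, 1 / W * T ω x y := by
  refine IsSq.sum Finset.univ (fun ω x y => 1 / W * T ω x y) fun ω _ => ?_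
  obtain ⟨ι, _, w, g, hw, h⟩ := hT ω
  refine ⟨ι, inferInstance, fun i => 1 / W * w i, g, fun i => mul_nonneg (by positivity) (hw i),
    fun x y => ?_⟩
  show 1 / W * T ω x y = _
  rw [h, Finset.mul_sum]
  exact Finset.sum_congr rfl fun i _ => by ring

theorem avg_le {Ω : Type} [Fintype Ω] {W B : ℝ} (hW0 : 0 < W) (hW : (Fintype.card Ω : ℝ) = W)
    {f : Ω → ℝ} (h : ∀ ω, f ω ≤ B) : ∑ ω, 1 / W * f ω ≤ B := by
  have h1 : ∀ ω, 1 / W * f ω ≤ 1 / W * B := fun ω =>
    mul_le_mul_of_nonneg_left (h ω) (by positivity)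
  refine (Finset.sum_le_sum fun ω _ => h1 ω).trans (le_of_eq ?_)
  rw [Finset.sum_const, Finset.card_univ, nsmul_eq_mul, hW]
  field_simp

theorem avg_ge {Ω : Type} [Fintype Ω] {W b : ℝ} (hW0 : 0 < W) (hW : (Fintype.card Ω : ℝ) = W)
    {f : Ω → ℝ} (hf : ∀ ω, 0 ≤ f ω) (hb : 0 ≤ b) {Bd : Set Ω} (h : ∀ ω, ω ∉ Bd → b ≤ f ω)
    (hBd : (Bd.ncard : ℝ) ≤ W / 2) : b / 2 ≤ ∑ ω, 1 / W * f ω := by
  classical
  have hBf : Bd.ncard = (Bd.toFinset).card := Set.ncard_eq_toFinset_card' Bd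
  have h1 : ∑ ω ∈ Finset.univ \ Bd.toFinset, (1 / W * b : ℝ) ≤ ∑ ω, 1 / W * f ω := by
    refine (Finset.sum_le_sum fun ω hω => ?_).trans
      (Finset.sum_le_sum_of_subset_of_nonneg (Finset.subset_univ _) fun ω _ _ =>
        mul_nonneg (by positivity) (hf ω))
    exact mul_le_mul_of_nonneg_left (h ω fun hb =>
      (Finset.mem_sdiff.mp hω).2 (Set.mem_toFinset.mpr hb)) (by positivity)
  refine le_trans ?_ h1
  rw [Finset.sum_const, nsmul_eq_mul]
  have h2 : ((Finset.univ \ Bd.toFinset).card : ℝ) = W - Bd.ncard := by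
    rw [Finset.card_univ_sdiff, hBf, Nat.cast_sub (Finset.card_le_univ _), hW]
  rw [h2]
  have h3 : b / 2 = W / 2 * (1 / W * b) := by field_simp
  rw [h3]
  apply mul_le_mul_of_nonneg_right _ (by positivity)
  linarith

/-- one scale -/
theorem scale (hp : RowPadK) {V : Type} [Finite V] {G : SimpleGraph V} {ℓ : Sym2 V → ℝ} {r : ℕ}
    (hc : G.Connected) (hP : NoK r G) (hℓ : ∀ e ∈ G.edgeSet, 0 < ℓ e) {τ : V → ℝ}
    (hτ0 : ∀ v, 0 ≤ τ v) (hτd : ∀ u v, |τ u - τ v| ≤ pathDist G ℓ u v) {s : ℝ} (hs : 0 < s) :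
    ∃ T : Option V → Option V → ℝ, IsSq T ∧
      (∀ u v, T (some u) (some v) ≤ 2 * pathDist G ℓ u v ^ 2) ∧
      (∀ v, T (some v) none ≤ τ v ^ 2) ∧ (∀ v, tent s (τ v) = 0 → T (some v) none = 0) ∧
      (∀ u v, tent s (τ u) = 0 → tent s (τ v) = 0 → T (some u) (some v) = 0) ∧
      ∀ x y, s ≤ τ x → τ x ≤ 2 * s → τ x ≤ 2 * pathDist G ℓ x y →
        τ x ^ 2 ≤ (1000 * ((r : ℝ) + 2) ^ 3) ^ 2 * T (some x) (some y) := by
  classical
  obtain ⟨a, ha⟩ : ∃ a : ℝ, a = (r : ℝ) + 2 := ⟨_, rfl⟩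
  have ha2 : 2 ≤ a := by
    rw [ha]
    have := Nat.cast_nonneg (α := ℝ) r
    linarith
  have ha0 : 0 < a := by linarith
  have ha3 : 8 ≤ a ^ 3 := by
    have := pow_le_pow_left₀ (by norm_num) ha2 3
    norm_num at this
    exact this
  obtain ⟨N, hN⟩ : ∃ N : ℕ, N = 4 * (r + 2) := ⟨_, rfl⟩
  have hN0 : 0 < N := by omega
  have hNa : (N : ℝ) = 4 * a := by
    rw [hN, ha]
    push_cast
    ring
  obtain ⟨W, hW⟩ : ∃ W : ℝ, W = (N : ℝ) ^ (r + 2) := ⟨_, rfl⟩
  have hW0 : 0 < W := by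
    rw [hW]
    have : (0 : ℝ) < N := by exact_mod_cast hN0
    positivity
  have hcard : (Fintype.card (Fin (r + 2) → Fin N) : ℝ) = W := by
    rw [Fintype.card_fun, Fintype.card_fin, Fintype.card_fin, hW]
    push_cast
    rfl
  obtain ⟨c, hc1, hc2⟩ := hp V G ℓ r hc hP hℓ (s / (20 * a ^ 2)) N (by positivity) hN0
  choose T h1 h2 h3 h4 h5 h6 using fun ω => one hc hℓ hτ0 hτd hs (c ω)
  refine ⟨fun x y => ∑ ω, 1 / W * T ω x y, avg_sq h1 hW0, fun u v => ?_, fun v => ?_, fun v hv => ?_,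
    fun u v hu hv => ?_, fun x y hx1 hx2 hxy => ?_⟩
  · exact avg_le hW0 hcard fun ω => h2 ω u v
  · exact avg_le hW0 hcard fun ω => h3 ω v
  · exact Finset.sum_eq_zero fun ω _ => by rw [h4 ω v hv, mul_zero]
  · exact Finset.sum_eq_zero fun ω _ => by rw [h5 ω u v hu hv, mul_zero]
  · obtain ⟨t, ht⟩ : ∃ t, t = s / (160 * a ^ 3) := ⟨_, rfl⟩
    have ht0 : 0 < t := by rw [ht]; positivity
    have hts : t ≤ s / 2 := by
      rw [ht]
      apply div_le_div_of_nonneg_left hs.le (by norm_num)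
      linarith
    have hbad := hc2 x t ht0.le
    rw [← ha, ← hW, hNa] at hbad
    have hb2 : (({ω | ∃ v, pathDist G ℓ x v ≤ t ∧ c ω x ≠ c ω v} :
        Set (Fin (r + 2) → Fin N)).ncard : ℝ) ≤ W / 2 := by
      refine hbad.trans (le_of_eq ?_)
      rw [ht]
      field_simp
      ring
    have h7 := avg_ge hW0 hcard (f := fun ω => T ω (some x) (some y)) (b := t ^ 2)
      (fun ω => (h1 ω).nonneg _ _) (sq_nonneg t) (fun ω hω => h6 ω x y t ht0.le
        (hts.trans (tent_ge hx1 hx2)) (by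
          intro h
          have h' := hc1 ω x y h
          rw [← ha] at h'
          have h'' : 8 * a ^ 2 * (s / (20 * a ^ 2)) = 2 / 5 * s := by
            field_simp
            norm_num
          rw [h''] at h'
          linarith) (by
          intro w hw
          by_contra h
          exact hω ⟨w, hw, h⟩)) hb2
    have h8 : t ^ 2 / 2 = s ^ 2 / (51200 * a ^ 6) := by
      rw [ht]
      field_simp
      ring
    rw [h8, div_le_iff₀ (by positivity)] at h7
    have h9 : τ x ^ 2 ≤ (2 * s) ^ 2 := pow_le_pow_left₀ (hτ0 x) hx2 2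
    have h10 : (2 * s) ^ 2 = 4 * s ^ 2 := by ring
    rw [h10] at h9
    show τ x ^ 2 ≤ (1000 * ((r : ℝ) + 2) ^ 3) ^ 2 * ∑ ω, 1 / W * T ω (some x) (some y)
    rw [← ha]
    have h11 : (1000 * a ^ 3) ^ 2 = 1000000 * a ^ 6 := by ring
    rw [h11]
    have h12 : 0 ≤ ∑ ω, 1 / W * T ω (some x) (some y) := (avg_sq h1 hW0).nonneg _ _
    generalize ∑ ω, 1 / W * T ω (some x) (some y) = S at h7 h12 ⊢
    have h13 : 0 ≤ a ^ 6 * S := mul_nonneg (by positivity) h12
    linarith

theorem rowVarP (hp : RowPadK) : RowVarP := by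
  classical
  intro r V _ G ℓ hc hP hℓ τ hτ0 hτl
  have hτd : ∀ u v, |τ u - τ v| ≤ pathDist G ℓ u v := pathDist_gen hc hτl
  have := Fintype.ofFinite V
  choose T h1 h2 h3 h4 h5 h6 using fun m : ℤ =>
    scale hp hc hP hℓ hτ0 hτd (s := (2 : ℝ) ^ m) (by positivity)
  obtain ⟨M, hM⟩ : ∃ M : Finset ℤ, M = Finset.univ.image fun v : V => Int.log 2 (τ v) :=
    ⟨_, rfl⟩
  have hsum : ∀ (I : Finset ℤ) (x y : Option V) (B : ℝ) (n : ℕ), 0 ≤ B → I.card ≤ n →
      (∀ m, m ∉ I → T m x y = 0) → (∀ m, T m x y ≤ B) → ∑ m ∈ M, T m x y ≤ n * B := by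
    intro I x y B n hB hcard h0 hle
    calc ∑ m ∈ M, T m x y ≤ ∑ m ∈ M ∪ I, T m x y :=
          Finset.sum_le_sum_of_subset_of_nonneg Finset.subset_union_left
            fun m _ _ => (h1 m).nonneg x y
      _ = ∑ m ∈ I, T m x y := by
          symm
          exact Finset.sum_subset Finset.subset_union_right fun m _ hm => h0 m hm
      _ ≤ ∑ _m ∈ I, B := Finset.sum_le_sum fun m _ => hle m
      _ = I.card * B := by rw [Finset.sum_const, nsmul_eq_mul]
      _ ≤ n * B := by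
          apply mul_le_mul_of_nonneg_right _ hB
          exact_mod_cast hcard
  refine ⟨fun x y => ∑ m ∈ M, T m x y, IsSq.sum M T fun m _ => h1 m, ?_, ?_, ?_⟩
  · intro u v huv
    have hd := pathDist_isMet hc hℓ
    have hduv : pathDist G ℓ u v ^ 2 ≤ ℓ s(u, v) ^ 2 :=
      pow_le_pow_left₀ (hd.nonneg u v) (pathDist_adj hℓ huv) 2
    have h := hsum (Finset.Icc (Int.log 2 (τ u) - 1) (Int.log 2 (τ u) + 1) ∪
        Finset.Icc (Int.log 2 (τ v) - 1) (Int.log 2 (τ v) + 1)) (some u) (some v)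
      (2 * pathDist G ℓ u v ^ 2) 6 (by positivity) (by
        refine (Finset.card_union_le _ _).trans ?_
        rw [Int.card_Icc, Int.card_Icc]
        omega) (by
        intro m hm
        rw [Finset.mem_union, not_or] at hm
        apply h5
        · by_contra h; exact hm.1 (mem_scales h)
        · by_contra h; exact hm.2 (mem_scales h)) (fun m => h2 m u v)
    push_cast at h
    show ∑ m ∈ M, T m (some u) (some v) ≤ _
    linarith
  · intro v
    have h := hsum (Finset.Icc (Int.log 2 (τ v) - 1) (Int.log 2 (τ v) + 1)) (some v) none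
      (τ v ^ 2) 3 (sq_nonneg _) (by
        rw [Int.card_Icc]
        omega) (by
        intro m hm
        apply h4
        by_contra h; exact hm (mem_scales h)) (fun m => h3 m v)
    have h' := sq_nonneg (τ v)
    push_cast at h
    show ∑ m ∈ M, T m (some v) none ≤ _
    linarith
  · intro x y hx hxy
    have k3 : ((2 : ℕ) : ℝ) ^ Int.log 2 (τ x) ≤ τ x := Int.zpow_log_le_self (by norm_num) hx
    have k4 : τ x < ((2 : ℕ) : ℝ) ^ (Int.log 2 (τ x) + 1) :=
      Int.lt_zpow_succ_log_self (by norm_num) _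
    push_cast at k3 k4
    rw [zpow_add_one₀ (by norm_num)] at k4
    have hmM : Int.log 2 (τ x) ∈ M := by
      rw [hM]
      exact Finset.mem_image_of_mem _ (Finset.mem_univ x)
    have hle : T (Int.log 2 (τ x)) (some x) (some y) ≤ ∑ m ∈ M, T m (some x) (some y) :=
      Finset.single_le_sum (f := fun m => T m (some x) (some y))
        (fun m _ => (h1 m).nonneg _ _) hmM
    have h := h6 (Int.log 2 (τ x)) x y k3 (by linarith) hxy
    exact h.trans (mul_le_mul_of_nonneg_left hle (by positivity))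

end Vale.Agent.P235.Kl.H549
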